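import Crest.Agent.R153A.Rec

/-!
Sub-Gaussian bound on the log moment generating function of the truncated hitting time, and the
link with `satProb`.
-/

set_option autoImplicit false
open Finset BigOperators Crest.ProbabilityR.RandomSAT

namespace Crest.Agent.R153A

variable {k n M : ℕ}

lemma E_all {ρ : ℝ} (hρ : 1 ≤ ρ) (hk : 0 < k) (h : k ≤ n) (j : Fin M) :
    𝔼 ω : Fin M → Clause k n, Q ρ (kill (base n M) j) ω
        (fun m => ind (kills (ω j) (Sol (kill (base n M) j) ω m)))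
      ≤ (k : ℝ) ^ k * U k ρ (kill (base n M) j) := by
  have := nonempty_clause h
  unfold U
  rw [expect_update j, Finset.mul_expect]
  refine Finset.expect_le_expect fun ω _ => ?_
  simp only [Q_kill_update hk, Sol_kill_update hk, Function.update_self]
  have e : W (kill (base n M) j).T ω = 1 := W_empty ω
  rw [Q_expect, e, one_mul, ← Q_mul]
  refine Q_mono hρ _ _ fun m => ?_
  refine le_trans (Finset.expect_le_expect fun c _ => ind_mono (Q := ∀ l, c.1.1 l ∈ _)
    fun hh => kills_Fr hh) ((prob_all hk h _).trans (le_of_eq ?_))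
  simp [beta, kill, base]

theorem mgf_bound (hk : 3 ≤ k) (C0 : ℝ) (hC0 : 0 ≤ C0) : ∃ l0 K : ℝ, ∃ n0 : ℕ, 0 < l0 ∧ 0 < K ∧
    ∀ n M : ℕ, k ≤ n → n0 ≤ n → (M : ℝ) ≤ C0 * n → ∀ l : ℝ, 0 < l → l ≤ l0 →
      Real.log (𝔼 ω : Fin M → Clause k n, Real.exp (l * Hn (base n M) ω))
        ≤ l * (𝔼 ω : Fin M → Clause k n, (Hn (base n M) ω : ℝ)) + K * n * l ^ 2 := by
  set c : ℝ := 4 * (Real.exp (2 ^ (k + 1) * (k : ℝ) ^ (k + 1) * C0) * 2 ^ (k + 1)) with hc
  set K1 : ℝ := 8 * C0 * 2 ^ k * (k : ℝ) ^ (k + 1) with hK1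
  have hc0 : 0 < c := by positivity
  have hK0 : 0 ≤ K1 := by positivity
  set δ : ℝ := 1 / (2 * (K1 * c + 1)) with hδ
  have hδ0 : 0 < δ := by positivity
  set p : ℝ := min (1 / 2) ((δ / 4) ^ k / 2 ^ k) with hp
  have hp0 : 0 < p := lt_min (by norm_num) (by positivity)
  have hp1 : p ≤ 1 / 2 := min_le_left _ _
  have hp2 : p * 2 ^ k ≤ (δ / 4) ^ k := by
    have : p ≤ (δ / 4) ^ k / 2 ^ k := min_le_right _ _
    rwa [le_div_iff₀ (by positivity)] at this
  have hδc : K1 * δ * c ≤ 1 / 2 := by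
    rw [hδ, mul_right_comm, mul_one_div, div_le_iff₀ (by positivity)]
    linarith
  set A : ℝ := 2 * K1 * (4 / p ^ 2 + C0 ^ 2) * c ^ 2 with hA
  have hA0 : 0 ≤ A := by positivity
  refine ⟨p / 2, 6 * C0 * (k : ℝ) ^ k * A + 1, ⌈2 * k / δ⌉₊, by positivity, by positivity, ?_⟩
  intro n M h hn0 hM
  have := nonempty_clause h
  have hδn : 2 * k ≤ δ * n := by
    have : 2 * k / δ ≤ n := (Nat.le_ceil _).trans (by exact_mod_cast hn0)
    rw [div_le_iff₀ hδ0] at this
    linarith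
  clear_value p δ
  refine herbst (fun ω : Fin M → Clause k n => (Hn (base n M) ω : ℝ)) _ (p / 2) ?_
  intro l hl hl0
  set ρ := Real.exp (l / 2) with hρdef
  have hρ : 1 ≤ ρ := Real.one_le_exp (by positivity)
  have hρ1 : ρ - 1 ≤ l := by
    have h0 : 0 ≤ l / 2 := by positivity
    have := Real.abs_exp_sub_one_le (x := l / 2) (by rw [abs_of_nonneg h0]; linarith)
    rw [abs_of_nonneg h0] at this
    linarith [le_abs_self (Real.exp (l / 2) - 1)]
  have eG : ∀ (D : Mdl n M) (ω : Fin M → Clause k n), G ρ D ω = Real.exp (l * Hn D ω) := by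
    intro D ω
    rw [G, hρdef, ← Real.exp_nat_mul]
    congr 1; push_cast; ring
  have hE := ent_le (fun ω : Fin M → Clause k n => G ρ (base n M) ω) (G_pos hρ _)
    (fun j ω => G ρ (kill (base n M) j) ω) (fun j ω => G_pos hρ _ _)
    (fun j ω c => le_antisymm
      (G_mono hρ fun t ht => by rwa [Sol_kill_update (show 0 < k by omega)] at ht)
      (G_mono hρ fun t ht => by rwa [Sol_kill_update (show 0 < k by omega)]))
  set Z := 𝔼 ω : Fin M → Clause k n, G ρ (base n M) ω with hZ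
  have hZ0 : 0 ≤ Z := Finset.expect_nonneg fun ω _ => (G_pos hρ _ _).le
  have h1 : ∀ j : Fin M, 𝔼 ω : Fin M → Clause k n, (G ρ (base n M) ω *
      Real.log (G ρ (base n M) ω / G ρ (kill (base n M) j) ω) - G ρ (base n M) ω
        + G ρ (kill (base n M) j) ω) ≤ 6 * l ^ 2 * ((k : ℝ) ^ k * (A * Z)) := by
    intro j
    have hU := U_bound hk h hδ0 hδn hp0 hp1 hp2 hρ (by linarith) hM hc hδc hA n
      (kill (base n M) j) (by simp [kill, base]) (by
        refine le_trans (Finset.card_le_card (t := {j}) fun i hi => ?_) (by simp)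
        by_contra e
        have e' : i ≠ j := by simpa using e
        exact (Finset.mem_filter.1 hi).2 (by simp [kill, base, Function.update_of_ne e']))
    have e0 : (kill (base n M) j).T.card = 0 := by simp [kill, base]
    rw [e0, pow_zero, mul_one] at hU
    have h2 := (E_all hρ (by omega) h j).trans (mul_le_mul_of_nonneg_left hU (by positivity))
    refine le_trans ?_ (mul_le_mul_of_nonneg_left h2 (by positivity))
    rw [Finset.mul_expect]
    refine Finset.expect_le_expect fun ω _ => ?_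
    have h3 : ρ ^ Hn (base n M) ω ≤ ρ ^ Hn (kill (base n M) j) ω :=
      pow_le_pow_right₀ hρ (Hn_mono fun t ht => ht.mono (Sol_sub_kill (by omega) _ _ j t))
    have h4 := ent_sq_le (by positivity) h3
    have h5 := Y_kill_sub hρ (show 0 < k by omega) (base n M) ω j
    have e1 : ρ ^ Hn (kill (base n M) j) ω - ρ ^ Hn (base n M) ω
        = (ρ - 1) * (Y ρ (kill (base n M) j) ω - Y ρ (base n M) ω) := by
      rw [mul_sub (ρ - 1), Y_geom, Y_geom]; ring
    rw [e1, mul_pow] at h4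
    simp only [G, mul_comm 2, pow_mul]
    refine h4.trans ?_
    have h6 : (ρ - 1) ^ 2 ≤ l ^ 2 := by gcongr
    calc _ ≤ 3 * (l ^ 2 * (2 * Q ρ (kill (base n M) j) ω
        (fun m => ind (kills (ω j) (Sol (kill (base n M) j) ω m))))) := by gcongr
      _ = _ := by ring
  have h2 := hE.trans (Finset.sum_le_sum fun j _ => h1 j)
  simp only [Finset.sum_const, Finset.card_univ, Fintype.card_fin, nsmul_eq_mul] at h2
  have e2 : ∀ ω : Fin M → Clause k n, Real.log (G ρ (base n M) ω) = l * Hn (base n M) ω := by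
    intro ω; rw [eG, Real.log_exp]
  simp only [e2] at h2
  simp only [← eG]
  refine h2.trans ?_
  rw [← hZ]
  have hn : (0 : ℝ) ≤ n := by positivity
  calc (M : ℝ) * (6 * l ^ 2 * ((k : ℝ) ^ k * (A * Z)))
      ≤ (C0 * n) * (6 * l ^ 2 * ((k : ℝ) ^ k * (A * Z))) := by gcongr
    _ = (6 * C0 * (k : ℝ) ^ k * A) * n * l ^ 2 * Z := by ring
    _ ≤ _ := by gcongr; linarith

lemma satProb_eq (k n m : ℕ) :
    satProb k n m = 𝔼 F : Fin m → Clause k n, ind (Satisfiable F) := by
  classical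
  rw [expect_ind]
  unfold satProb Crest.FinProb.uniformProb
  congr

lemma expect_prefix {C : Type*} [Fintype C] [Nonempty C] {t M : ℕ} (h : t ≤ M)
    (g : (Fin t → C) → ℝ) : 𝔼 ω : Fin M → C, g (fun i => ω (Fin.castLE h i)) = 𝔼 F, g F := by
  obtain ⟨s, rfl⟩ := Nat.exists_eq_add_of_le h
  rw [← Fintype.expect_equiv (Fin.appendEquiv t s) (fun x => g x.1), expect_prod']
  · simp
  · intro x
    congr 1
    funext i
    exact (Fin.append_left x.1 x.2 i).symm

lemma expect_al (h : k ≤ n) {t : ℕ} (ht : t ≤ M) :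
    𝔼 ω : Fin M → Clause k n, al (base n M) ω t = satProb k n t := by
  have := nonempty_clause h
  rw [satProb_eq, ← expect_prefix ht]
  refine Finset.expect_congr rfl fun ω _ => ind_congr ?_
  constructor
  · rintro ⟨σ, hσ⟩
    exact ⟨σ, fun j => hσ.2 _ j.2 (by simp [base, touch])⟩
  · rintro ⟨σ, hσ⟩
    exact ⟨σ, by simp [base], fun i hi _ => hσ ⟨i.val, hi⟩⟩

lemma expect_Hn (h : k ≤ n) : 𝔼 ω : Fin M → Clause k n, (Hn (base n M) ω : ℝ)
    = ∑ t ∈ range M, satProb k n t := by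
  simp only [Hn_eq_sum, Finset.expect_sum_comm]
  exact Finset.sum_congr rfl fun t ht => expect_al h (Finset.mem_range.1 ht).le

lemma Hn_sq (D : Mdl n M) (ω : Fin M → Clause k n) :
    (Hn D ω : ℝ) ^ 2 = ∑ t ∈ range M, (2 * (t : ℝ) + 1) * al D ω t := by
  have h1 : ∀ a : ℕ, (a : ℝ) ^ 2 = ∑ t ∈ range a, (2 * (t : ℝ) + 1) := by
    intro a
    induction a with
    | zero => simp
    | succ a ih => rw [Finset.sum_range_succ, ← ih]; push_cast; ring
  rw [h1, ← Finset.sum_subset (Finset.range_subset_range.2 (Hn_le D ω))]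
  · refine Finset.sum_congr rfl fun t ht => ?_
    rw [Finset.mem_range] at ht
    rw [al, ind_pos ((lt_Hn D ω (lt_of_lt_of_le ht (Hn_le D ω))).2 ht), mul_one]
  · intro t ht ht'
    rw [Finset.mem_range] at ht ht'
    rw [al, ind_neg (fun h => ht' ((lt_Hn D ω ht).1 h)), mul_zero]

lemma expect_Hn_sq (h : k ≤ n) : 𝔼 ω : Fin M → Clause k n, (Hn (base n M) ω : ℝ) ^ 2
    = ∑ t ∈ range M, (2 * (t : ℝ) + 1) * satProb k n t := by
  simp only [Hn_sq, Finset.expect_sum_comm, ← Finset.mul_expect]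
  exact Finset.sum_congr rfl fun t ht => by rw [expect_al h (Finset.mem_range.1 ht).le]

lemma satProb_nonneg (k n m : ℕ) : 0 ≤ satProb k n m := by
  rw [satProb_eq]; exact Finset.expect_nonneg fun _ _ => ind_nonneg _

lemma satProb_le_one (k n m : ℕ) : satProb k n m ≤ 1 := by
  unfold satProb Crest.FinProb.uniformProb
  refine div_le_one_of_le₀ ?_ (by positivity)
  exact_mod_cast Finset.card_le_univ _

lemma satProb_anti (h : k ≤ n) {m m' : ℕ} (hm : m ≤ m') : satProb k n m' ≤ satProb k n m := by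
  rw [← expect_al (M := m') h le_rfl, ← expect_al (M := m') h hm]
  exact Finset.expect_le_expect fun ω _ => al_anti _ _ hm

lemma satProb_le_pow (h : k ≤ n) (m : ℕ) : satProb k n m ≤ 2 ^ n * (1 - 1 / 2 ^ k) ^ m := by
  rw [satProb_eq]
  have h1 : ∀ F : Fin m → Clause k n, ind (Satisfiable F)
      ≤ ∑ σ : Fin n → Bool, ∏ j, ind (ClauseSat σ (F j)) := by
    intro F
    refine (ind_exists_le _).trans (Finset.sum_le_sum fun σ _ => ?_)
    by_cases hh : ∀ j, ClauseSat σ (F j)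
    · simp [ind_pos hh, ind_pos (hh _)]
    · rw [ind_neg hh]; exact Finset.prod_nonneg fun _ _ => ind_nonneg _
  refine (Finset.expect_le_expect fun F _ => h1 F).trans (le_of_eq ?_)
  rw [Finset.expect_sum_comm]
  have h2 : ∀ σ : Fin n → Bool, 𝔼 F : Fin m → Clause k n, ∏ j, ind (ClauseSat σ (F j))
      = (1 - 1 / 2 ^ k) ^ m := by
    intro σ
    rw [← prob_sat h σ, Finset.expect_pow, Fintype.piFinset_univ]
  simp [h2]

/-- the variance of the truncated hitting time -/
theorem var_trunc (hk : 3 ≤ k) (C0 : ℝ) (hC0 : 0 ≤ C0) : ∃ C : ℝ, ∀ n M : ℕ, k ≤ n →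
    (M : ℝ) ≤ C0 * n → (∑ t ∈ range M, (2 * (t : ℝ) + 1) * satProb k n t)
      - (∑ t ∈ range M, satProb k n t) ^ 2 ≤ C * n := by
  obtain ⟨l0, K, n0, hl0, hK, H⟩ := mgf_bound hk C0 hC0
  refine ⟨4 * K + 1 + C0 ^ 2 * n0, fun n M h hM => ?_⟩
  have := nonempty_clause h
  have hn : (1 : ℝ) ≤ n := by exact_mod_cast (show 1 ≤ n by omega)
  rw [← expect_Hn h, ← expect_Hn_sq h]
  have h0 : 0 ≤ C0 ^ 2 * n0 := by positivity
  by_cases hn0 : n0 ≤ n
  · have := var_le_of_mgf (fun ω : Fin M → Clause k n => (Hn (base n M) ω : ℝ)) (K * n) l0 hl0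
      (by positivity) (H n M h hn0 hM)
    nlinarith
  · have h1 : 𝔼 ω : Fin M → Clause k n, (Hn (base n M) ω : ℝ) ^ 2 ≤ (C0 * n) ^ 2 :=
      Finset.expect_le Finset.univ_nonempty fun ω _ => by
        have : (Hn (base n M) ω : ℝ) ≤ M := by exact_mod_cast Hn_le _ ω
        gcongr; linarith
    have h2 : (n : ℝ) ≤ n0 := by exact_mod_cast (not_le.1 hn0).le
    have h3 : (C0 * n) ^ 2 ≤ C0 ^ 2 * n0 * n := by
      rw [mul_pow, sq (n : ℝ), mul_assoc]; gcongr
    nlinarith [sq_nonneg (𝔼 ω : Fin M → Clause k n, (Hn (base n M) ω : ℝ))]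

theorem variance_bound (k : ℕ) (hk : 3 ≤ k) :
    ∃ C : ℝ, ∀ n : ℕ, k ≤ n →
      Summable (fun m : ℕ => satProb k n m) ∧
      Summable (fun m : ℕ => (2 * (m : ℝ) + 1) * satProb k n m) ∧
      (∑' m : ℕ, (2 * (m : ℝ) + 1) * satProb k n m) - (∑' m : ℕ, satProb k n m) ^ 2 ≤ C * n := by
  set q : ℝ := 1 - 1 / 2 ^ k with hq
  have hq0 : 0 ≤ q := by
    rw [hq, sub_nonneg, div_le_one (by positivity)]; exact one_le_pow₀ (by norm_num)
  have hq1 : q < 1 := by rw [hq, sub_lt_self_iff]; positivity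
  obtain ⟨L, hL⟩ : ∃ L : ℕ, q ^ L < 1 / 2 := exists_pow_lt_of_lt_one (by norm_num) hq1
  obtain ⟨C, hC⟩ := var_trunc hk L (by positivity)
  have s0 : Summable fun m : ℕ => q ^ m := summable_geometric_of_lt_one hq0 hq1
  have s1 : Summable fun m : ℕ => (m : ℝ) * q ^ m := by
    simpa using summable_pow_mul_geometric_of_norm_lt_one 1 (r := q)
      (by rwa [Real.norm_eq_abs, abs_of_nonneg hq0])
  set S0 := ∑' m : ℕ, q ^ m
  set S1 := ∑' m : ℕ, (m : ℝ) * q ^ m
  have hS0 : 0 ≤ S0 := tsum_nonneg fun m => by positivity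
  have hS1 : 0 ≤ S1 := tsum_nonneg fun m => by positivity
  refine ⟨C + ((2 * L + 1) * S0 + 2 * S1), fun n h => ?_⟩
  have hn : (1 : ℝ) ≤ n := by exact_mod_cast (show 1 ≤ n by omega)
  have t0 : Summable (fun m : ℕ => satProb k n m) :=
    Summable.of_nonneg_of_le (satProb_nonneg k n) (satProb_le_pow h) (s0.mul_left _)
  have t1 : Summable (fun m : ℕ => (2 * (m : ℝ) + 1) * satProb k n m) := by
    refine Summable.of_nonneg_of_le (fun m => mul_nonneg (by positivity) (satProb_nonneg k n m))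
      (fun m => ?_) (((s1.mul_left 2).add s0).mul_left (2 ^ n))
    calc _ ≤ (2 * (m : ℝ) + 1) * (2 ^ n * q ^ m) := by gcongr; exact satProb_le_pow h m
      _ = _ := by ring
  refine ⟨t0, t1, ?_⟩
  have h1 := hC n (L * n) h (by push_cast; rfl)
  have h2 : ∑ t ∈ range (L * n), satProb k n t ≤ ∑' m : ℕ, satProb k n m :=
    t0.sum_le_tsum _ fun m _ => satProb_nonneg k n m
  have h3 : (∑ t ∈ range (L * n), satProb k n t) ^ 2 ≤ (∑' m : ℕ, satProb k n m) ^ 2 :=
    pow_le_pow_left₀ (Finset.sum_nonneg fun m _ => satProb_nonneg k n m) h2 2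
  have h4 : ∑' m : ℕ, (2 * ((m + L * n : ℕ) : ℝ) + 1) * satProb k n (m + L * n)
      ≤ (2 * (L * n) + 1) * S0 + 2 * S1 := by
    rw [← tsum_mul_left, ← tsum_mul_left, ← (s0.mul_left _).tsum_add (s1.mul_left _)]
    refine Summable.tsum_le_tsum (fun m => ?_) ((summable_nat_add_iff (L * n)).2 t1)
      ((s0.mul_left _).add (s1.mul_left _))
    have h5 : satProb k n (m + L * n) ≤ q ^ m := by
      refine (satProb_le_pow h _).trans ?_
      rw [← hq, pow_add, pow_mul, mul_left_comm, ← mul_pow]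
      refine mul_le_of_le_one_right (by positivity) (pow_le_one₀ (by positivity) (by linarith))
    calc _ ≤ (2 * ((m + L * n : ℕ) : ℝ) + 1) * q ^ m := by gcongr
      _ = _ := by push_cast; ring
  rw [← t1.sum_add_tsum_nat_add (L * n)]
  have h6 : (2 * (L * n) + 1) * S0 + 2 * S1 ≤ ((2 * L + 1) * S0 + 2 * S1) * n := by
    nlinarith [mul_nonneg hS0 (sub_nonneg.2 hn), mul_nonneg hS1 (sub_nonneg.2 hn)]
  linarith

end Crest.Agent.R153A
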