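import Mathlib

/-!
Uniform averages on finite products: resampling one coordinate, tensorisation of entropy,
Herbst's argument, variance and tail from a bound on the log moment generating function.
-/

set_option autoImplicit false
open Finset BigOperators

namespace Crest.Agent.R153A

section prod
variable {ι C : Type*} [Fintype ι] [DecidableEq ι] [Fintype C]

lemma expect_update [Nonempty C] (t : ι) (f : (ι → C) → ℝ) :
    𝔼 ω, f ω = 𝔼 ω, 𝔼 c, f (Function.update ω t c) := by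
  have h1 : 𝔼 ω : ι → C, 𝔼 c : C, f (Function.update ω t c)
      = 𝔼 x : (ι → C) × C, f (Function.update x.1 t x.2) := by
    rw [← Finset.univ_product_univ,
      Finset.expect_product' _ _ (fun a (c : C) => f (Function.update a t c))]
  have h2 : 𝔼 ω : ι → C, f ω = 𝔼 x : (ι → C) × C, f x.1 := by
    rw [← Finset.univ_product_univ, Finset.expect_product' _ _ (fun a (_ : C) => f a)]
    simp
  rw [h1, h2]
  let e : (ι → C) × C ≃ (ι → C) × C :=
    { toFun := fun x => (Function.update x.1 t x.2, x.1 t)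
      invFun := fun x => (Function.update x.1 t x.2, x.1 t)
      left_inv := fun x => by simp
      right_inv := fun x => by simp }
  exact (Fintype.expect_equiv e _ _ (fun x => rfl)).symm

/-- average over the coordinates in `S` -/
noncomputable def PS (S : Finset ι) (f : (ι → C) → ℝ) (ω : ι → C) : ℝ :=
  𝔼 ω' : ι → C, f (S.piecewise ω' ω)

lemma PS_insert [Nonempty C] {S : Finset ι} {j : ι} (hj : j ∉ S) (f : (ι → C) → ℝ) (ω : ι → C) :
    PS (insert j S) f ω = 𝔼 c, PS S f (Function.update ω j c) := by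
  unfold PS
  rw [expect_update j, Finset.expect_comm]
  refine Finset.expect_congr rfl fun c _ => Finset.expect_congr rfl fun ω' _ => ?_
  congr 1
  funext i
  by_cases h : i = j
  · subst h; simp [Finset.piecewise, hj]
  · by_cases h2 : i ∈ S <;> simp [Finset.piecewise, h, h2]

lemma PS_pos [Nonempty C] (S : Finset ι) {f : (ι → C) → ℝ} (hf : ∀ ω, 0 < f ω) (ω : ι → C) :
    0 < PS S f ω :=
  Finset.expect_pos (fun _ _ => hf _) Finset.univ_nonempty

lemma young_log {f u g : ℝ} (hf : 0 < f) (hu : 0 < u) (hg : 0 < g) :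
    f * Real.log g ≤ f * Real.log (f / u) - f + u * g := by
  have h := Real.log_le_sub_one_of_pos (show 0 < u * g / f by positivity)
  rw [Real.log_div (by positivity) hf.ne', Real.log_mul hu.ne' hg.ne'] at h
  rw [Real.log_div hf.ne' hu.ne']
  have h2 := mul_le_mul_of_nonneg_left h hf.le
  have h3 : f * (u * g / f - 1) = u * g - f := by field_simp
  nlinarith

lemma ent_PS [Nonempty C] (f : (ι → C) → ℝ) (hf : ∀ ω, 0 < f ω) (u : ι → (ι → C) → ℝ)
    (hu : ∀ j ω, 0 < u j ω) (hinv : ∀ j ω c, u j (Function.update ω j c) = u j ω)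
    (S : Finset ι) :
    𝔼 ω, f ω * Real.log (f ω / PS S f ω)
      ≤ ∑ j ∈ S, 𝔼 ω, (f ω * Real.log (f ω / u j ω) - f ω + u j ω) := by
  induction S using Finset.induction_on with
  | empty =>
    have : ∀ ω, PS (∅ : Finset ι) f ω = f ω := fun ω => by simp [PS]
    simp [this, (hf _).ne']
  | insert j S hj ih =>
    rw [Finset.sum_insert hj]
    have hP := PS_pos S hf
    have hP' := PS_pos (insert j S) hf
    have h1 : ∀ ω, f ω * Real.log (f ω / PS (insert j S) f ω)
        ≤ (f ω * Real.log (f ω / u j ω) - f ω + u j ω * (PS S f ω / PS (insert j S) f ω))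
          + f ω * Real.log (f ω / PS S f ω) := by
      intro ω
      have hy := young_log (hf ω) (hu j ω) (div_pos (hP ω) (hP' ω))
      have e : Real.log (f ω / PS (insert j S) f ω)
          = Real.log (PS S f ω / PS (insert j S) f ω) + Real.log (f ω / PS S f ω) := by
        rw [Real.log_div (hf ω).ne' (hP' ω).ne', Real.log_div (hP ω).ne' (hP' ω).ne',
          Real.log_div (hf ω).ne' (hP ω).ne']
        ring
      rw [e, mul_add]
      linarith
    have h2 : 𝔼 ω, u j ω * (PS S f ω / PS (insert j S) f ω) = 𝔼 ω, u j ω := by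
      rw [expect_update j]
      refine Finset.expect_congr rfl fun ω _ => ?_
      have h3 : ∀ c, PS (insert j S) f (Function.update ω j c) = PS (insert j S) f ω := by
        intro c
        rw [PS_insert hj, PS_insert hj]
        simp
      simp only [hinv, h3]
      rw [← Finset.mul_expect, ← Finset.expect_div, ← PS_insert hj, div_self (hP' ω).ne', mul_one]
    calc _ ≤ 𝔼 ω, ((f ω * Real.log (f ω / u j ω) - f ω
              + u j ω * (PS S f ω / PS (insert j S) f ω))
          + f ω * Real.log (f ω / PS S f ω)) := Finset.expect_le_expect fun ω _ => h1 ω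
      _ ≤ _ := by
        rw [Finset.expect_add_distrib, Finset.expect_add_distrib, h2,
          Finset.expect_add_distrib]
        linarith

/-- tensorisation of entropy -/
lemma ent_le [Nonempty C] (f : (ι → C) → ℝ) (hf : ∀ ω, 0 < f ω) (u : ι → (ι → C) → ℝ)
    (hu : ∀ j ω, 0 < u j ω) (hinv : ∀ j ω c, u j (Function.update ω j c) = u j ω) :
    𝔼 ω, f ω * Real.log (f ω) - (𝔼 ω, f ω) * Real.log (𝔼 ω, f ω)
      ≤ ∑ j, 𝔼 ω, (f ω * Real.log (f ω / u j ω) - f ω + u j ω) := by
  have h := ent_PS f hf u hu hinv Finset.univ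
  have hE : 0 < 𝔼 ω, f ω := Finset.expect_pos (fun _ _ => hf _) Finset.univ_nonempty
  have e : ∀ ω, PS (Finset.univ : Finset ι) f ω = 𝔼 ω, f ω := fun ω => by simp [PS]
  simp only [e] at h
  refine le_trans (le_of_eq ?_) h
  rw [Finset.expect_mul, ← Finset.expect_sub_distrib]
  refine Finset.expect_congr rfl fun ω _ => ?_
  rw [Real.log_div (hf ω).ne' hE.ne']
  ring

end prod

lemma ent_sq_le {a b : ℝ} (ha : 0 < a) (hab : a ≤ b) :
    a ^ 2 * Real.log (a ^ 2 / b ^ 2) - a ^ 2 + b ^ 2 ≤ 3 * (b - a) ^ 2 := by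
  have hb : 0 < b := lt_of_lt_of_le ha hab
  have h := Real.log_le_sub_one_of_pos (div_pos ha hb)
  rw [← div_pow, Real.log_pow]
  have hx : a / b ≤ 1 := (div_le_one hb).2 hab
  obtain ⟨x, rfl⟩ : ∃ x, a = x * b := ⟨a / b, by field_simp⟩
  have e : x * b / b = x := by field_simp
  rw [e] at h hx ⊢
  have hx0 : 0 < x := by
    by_contra hc
    have := mul_nonpos_of_nonpos_of_nonneg (not_lt.1 hc) hb.le
    linarith
  have h1 : x ^ 2 * (2 * Real.log x) - x ^ 2 + 1 ≤ 3 * (1 - x) ^ 2 := by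
    have h2 : x ^ 2 * (2 * Real.log x) ≤ x ^ 2 * (2 * (x - 1)) := by gcongr
    nlinarith [mul_nonneg (sq_nonneg (1 - x)) (sub_nonneg.2 hx)]
  have h3 := mul_le_mul_of_nonneg_left h1 (sq_nonneg b)
  push_cast
  nlinarith

section herbst
variable {Ω : Type*} [Fintype Ω] [Nonempty Ω]

omit [Nonempty Ω] in
lemma hasDerivAt_mgf (X : Ω → ℝ) (l : ℝ) :
    HasDerivAt (fun l : ℝ => 𝔼 ω, Real.exp (l * X ω)) (𝔼 ω, X ω * Real.exp (l * X ω)) l := by
  simp only [Fintype.expect_eq_sum_div_card]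
  refine HasDerivAt.div_const ?_ _
  refine HasDerivAt.fun_sum fun ω _ => ?_
  have h := ((hasDerivAt_id l).mul_const (X ω)).exp
  simpa [mul_comm] using h

/-- Herbst's argument -/
lemma herbst (X : Ω → ℝ) (K l0 : ℝ)
    (h : ∀ l : ℝ, 0 < l → l ≤ l0 →
      𝔼 ω, Real.exp (l * X ω) * (l * X ω)
        - (𝔼 ω, Real.exp (l * X ω)) * Real.log (𝔼 ω, Real.exp (l * X ω))
        ≤ K * l ^ 2 * 𝔼 ω, Real.exp (l * X ω))
    (l : ℝ) (hl : 0 < l) (hl0 : l ≤ l0) :
    Real.log (𝔼 ω, Real.exp (l * X ω)) ≤ l * (𝔼 ω, X ω) + K * l ^ 2 := by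
  set F : ℝ → ℝ := fun l => 𝔼 ω, Real.exp (l * X ω) with hF
  have Fpos : ∀ l, 0 < F l := fun l =>
    Finset.expect_pos (fun _ _ => Real.exp_pos _) Finset.univ_nonempty
  have hψ : ∀ l, HasDerivAt (fun l => Real.log (F l))
      ((𝔼 ω, X ω * Real.exp (l * X ω)) / F l) l := fun l =>
    (hasDerivAt_mgf X l).log (Fpos l).ne'
  set g : ℝ → ℝ := fun s => Real.log (F s) / s - K * s with hg
  have hgd : ∀ s, 0 < s → HasDerivAt g
      ((((𝔼 ω, X ω * Real.exp (s * X ω)) / F s) * s - Real.log (F s) * 1) / s ^ 2 - K * 1) s :=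
    fun s hs => ((hψ s).div (hasDerivAt_id s) hs.ne').sub ((hasDerivAt_id s).const_mul K)
  have hanti : AntitoneOn g (Set.Ioc 0 l0) := by
    refine antitoneOn_of_deriv_nonpos (convex_Ioc _ _) ?_ ?_ ?_
    · intro s hs
      exact (hgd s hs.1).continuousAt.continuousWithinAt
    · intro s hs
      rw [interior_Ioc] at hs
      exact (hgd s hs.1).differentiableAt.differentiableWithinAt
    · intro s hs
      rw [interior_Ioc] at hs
      rw [(hgd s hs.1).deriv]
      have h1 := h s hs.1 hs.2.le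
      have e : 𝔼 ω, Real.exp (s * X ω) * (s * X ω) = (𝔼 ω, X ω * Real.exp (s * X ω)) * s := by
        rw [Finset.expect_mul]
        exact Finset.expect_congr rfl fun ω _ => by ring
      rw [e] at h1
      have hs0 := hs.1
      have hF0 := Fpos s
      rw [sub_nonpos, div_le_iff₀ (by positivity), mul_one, mul_one]
      have : (𝔼 ω, X ω * Real.exp (s * X ω)) / F s * s - Real.log (F s)
          = ((𝔼 ω, X ω * Real.exp (s * X ω)) * s - F s * Real.log (F s)) / F s := by
        generalize (𝔼 ω, X ω * Real.exp (s * X ω)) = A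
        field_simp
      rw [this, div_le_iff₀ hF0]
      exact h1
  have hlim : Filter.Tendsto g (nhdsWithin 0 (Set.Ioi 0)) (nhds (𝔼 ω, X ω)) := by
    have h0 := (hψ 0).tendsto_slope_zero_right
    have F0 : F 0 = 1 := by simp [hF]
    simp only [zero_mul, Real.exp_zero, mul_one, F0, div_one, zero_add, Real.log_one,
      sub_zero, smul_eq_mul] at h0
    have h1 : Filter.Tendsto (fun s : ℝ => K * s) (nhdsWithin 0 (Set.Ioi 0)) (nhds (K * 0)) :=
      (tendsto_nhdsWithin_of_tendsto_nhds (Filter.tendsto_id.const_mul K))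
    have h2 := h0.sub h1
    simp only [mul_zero, sub_zero] at h2
    refine h2.congr fun s => ?_
    simp only [hg]
    rw [div_eq_inv_mul]
  have hle : g l ≤ 𝔼 ω, X ω := by
    refine ge_of_tendsto hlim ?_
    filter_upwards [Ioo_mem_nhdsGT hl] with s hs
    exact hanti ⟨hs.1, hs.2.le.trans hl0⟩ ⟨hl, hl0⟩ hs.2.le
  simp only [hg] at hle
  rw [sub_le_iff_le_add, div_le_iff₀ hl] at hle
  nlinarith

/-- variance from a bound on the log moment generating function -/
lemma var_le_of_mgf (X : Ω → ℝ) (K l0 : ℝ) (hl0 : 0 < l0) (hK : 0 ≤ K)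
    (h : ∀ l : ℝ, 0 < l → l ≤ l0 →
      Real.log (𝔼 ω, Real.exp (l * X ω)) ≤ l * (𝔼 ω, X ω) + K * l ^ 2) :
    (𝔼 ω, X ω ^ 2) - (𝔼 ω, X ω) ^ 2 ≤ 4 * K + 1 := by
  set μ := 𝔼 ω, X ω with hμ
  obtain ⟨R, hR1, hR⟩ : ∃ R : ℝ, 1 ≤ R ∧ ∀ ω, |X ω - μ| ≤ R := by
    obtain ⟨R, hR⟩ := (Set.finite_range fun ω => |X ω - μ|).bddAbove
    exact ⟨max R 1, le_max_right _ _, fun ω => (hR ⟨ω, rfl⟩).trans (le_max_left _ _)⟩
  set l := min l0 (min (1 / R ^ 3) (1 / (K + 1))) with hl
  have hR0 : 0 < R := by linarith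
  have lpos : 0 < l := lt_min hl0 (lt_min (by positivity) (by positivity))
  have l1 : l ≤ l0 := min_le_left _ _
  have l2 : l * R ^ 3 ≤ 1 := by
    have : l ≤ 1 / R ^ 3 := (min_le_right _ _).trans (min_le_left _ _)
    rwa [le_div_iff₀ (by positivity)] at this
  have l3 : l * (K + 1) ≤ 1 := by
    have : l ≤ 1 / (K + 1) := (min_le_right _ _).trans (min_le_right _ _)
    rwa [le_div_iff₀ (by positivity)] at this
  have l4 : l * R ≤ 1 := by
    have : R ≤ R ^ 3 := le_self_pow₀ hR1 (by norm_num)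
    nlinarith
  have l5 : l ≤ 1 := by nlinarith
  have l6 : K * l ^ 2 ≤ 1 := by nlinarith
  have hE : 0 < 𝔼 ω, Real.exp (l * X ω) :=
    Finset.expect_pos (fun _ _ => Real.exp_pos _) Finset.univ_nonempty
  have h1 : 𝔼 ω, Real.exp (l * (X ω - μ)) ≤ Real.exp (K * l ^ 2) := by
    have h2 := Real.exp_le_exp.2 (h l lpos l1)
    rw [Real.exp_log hE, Real.exp_add] at h2
    have e : 𝔼 ω, Real.exp (l * (X ω - μ)) = (𝔼 ω, Real.exp (l * X ω)) / Real.exp (l * μ) := by
      rw [Finset.expect_div]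
      exact Finset.expect_congr rfl fun ω _ => by rw [← Real.exp_sub, mul_sub]
    rw [e, div_le_iff₀ (Real.exp_pos _)]
    linarith
  have h2 : Real.exp (K * l ^ 2) ≤ 1 + 2 * (K * l ^ 2) := by
    have h0 : 0 ≤ K * l ^ 2 := by positivity
    have := Real.abs_exp_sub_one_le (x := K * l ^ 2) (by rw [abs_of_nonneg h0]; exact l6)
    rw [abs_of_nonneg h0] at this
    linarith [le_abs_self (Real.exp (K * l ^ 2) - 1)]
  have h3 : ∀ ω, 1 + l * (X ω - μ) + l ^ 2 / 2 * (X ω - μ) ^ 2 - l ^ 2 / 2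
      ≤ Real.exp (l * (X ω - μ)) := by
    intro ω
    have hx : |l * (X ω - μ)| ≤ l * R := by
      rw [abs_mul, abs_of_pos lpos]; gcongr; exact hR ω
    have hb := Real.exp_bound (x := l * (X ω - μ)) (hx.trans l4) (n := 3) (by norm_num)
    have hx3 : |l * (X ω - μ)| ^ 3 ≤ (l * R) ^ 3 := by gcongr
    have h4 : (l * R) ^ 3 ≤ l ^ 2 := by
      have : (l * R) ^ 3 = l ^ 2 * (l * R ^ 3) := by ring
      rw [this]; nlinarith [sq_nonneg l]
    simp only [Finset.sum_range_succ, Finset.sum_range_zero, Nat.factorial] at hb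
    have hb2 := (abs_le.1 hb).1
    norm_num at hb2
    have e : (|l| * |X ω - μ|) ^ 3 = |l * (X ω - μ)| ^ 3 := by rw [abs_mul]
    rw [e] at hb2
    nlinarith [sq_nonneg l]
  have h4 := Finset.expect_le_expect (s := Finset.univ) fun ω _ => h3 ω
  have e : 𝔼 ω, (1 + l * (X ω - μ) + l ^ 2 / 2 * (X ω - μ) ^ 2 - l ^ 2 / 2)
      = 1 + l ^ 2 / 2 * ((𝔼 ω, X ω ^ 2) - μ ^ 2) - l ^ 2 / 2 := by
    have e1 : ∀ ω, (1 + l * (X ω - μ) + l ^ 2 / 2 * (X ω - μ) ^ 2 - l ^ 2 / 2)
        = (1 - l * μ + l ^ 2 / 2 * μ ^ 2 - l ^ 2 / 2) + (l - l ^ 2 * μ) * X ω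
          + l ^ 2 / 2 * X ω ^ 2 := fun ω => by ring
    simp only [e1]
    rw [Finset.expect_add_distrib, Finset.expect_add_distrib, ← Finset.mul_expect,
      ← Finset.mul_expect, Fintype.expect_const, ← hμ]
    ring
  rw [e] at h4
  have h5 : l ^ 2 / 2 * ((𝔼 ω, X ω ^ 2) - μ ^ 2) ≤ l ^ 2 / 2 * (4 * K + 1) := by nlinarith
  exact le_of_mul_le_mul_left h5 (by positivity)

/-- Chernoff bound -/
lemma chernoff (X : Ω → ℝ) (P : Ω → Prop) [DecidablePred P] (a l b : ℝ) (hl : 0 ≤ l)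
    (hP : ∀ ω, P ω → a ≤ X ω) (h : Real.log (𝔼 ω, Real.exp (l * X ω)) ≤ b) :
    𝔼 ω, (if P ω then (1 : ℝ) else 0) ≤ Real.exp (b - l * a) := by
  have hE : 0 < 𝔼 ω, Real.exp (l * X ω) :=
    Finset.expect_pos (fun _ _ => Real.exp_pos _) Finset.univ_nonempty
  have h2 := Real.exp_le_exp.2 h
  rw [Real.exp_log hE] at h2
  rw [Real.exp_sub, le_div_iff₀ (Real.exp_pos _), Finset.expect_mul]
  refine le_trans (Finset.expect_le_expect fun ω _ => ?_) h2
  split_ifs with hω
  · rw [one_mul]; exact Real.exp_le_exp.2 (mul_le_mul_of_nonneg_left (hP ω hω) hl)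
  · rw [zero_mul]; exact (Real.exp_pos _).le

end herbst

end Crest.Agent.R153A
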