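import Crest.Prelude.Def_RandomSAT
import Crest.Agent.R153A.Avg

/-!
Counting estimates for one uniformly random clause.
-/

set_option autoImplicit false
open Finset BigOperators Crest.ProbabilityR.RandomSAT

namespace Crest.Agent.R153A

/-- real indicator -/
noncomputable def ind (P : Prop) : ℝ := by classical exact if P then 1 else 0

lemma ind_nonneg (P : Prop) : 0 ≤ ind P := by unfold ind; split_ifs <;> norm_num
lemma ind_le_one (P : Prop) : ind P ≤ 1 := by unfold ind; split_ifs <;> norm_num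
lemma ind_pos {P : Prop} (h : P) : ind P = 1 := by unfold ind; simp [h]
lemma ind_neg {P : Prop} (h : ¬ P) : ind P = 0 := by unfold ind; simp [h]
lemma ind_mono {P Q : Prop} (h : P → Q) : ind P ≤ ind Q := by
  by_cases hP : P
  · rw [ind_pos hP, ind_pos (h hP)]
  · rw [ind_neg hP]; exact ind_nonneg _
lemma ind_congr {P Q : Prop} (h : P ↔ Q) : ind P = ind Q := by rw [propext h]
lemma ind_and (P Q : Prop) : ind (P ∧ Q) = ind P * ind Q := by
  by_cases hP : P <;> by_cases hQ : Q <;> simp [ind, hP, hQ]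
lemma ind_not (P : Prop) : ind (¬ P) = 1 - ind P := by
  by_cases hP : P <;> simp [ind, hP]
lemma ind_eq_ite (P : Prop) [Decidable P] : ind P = if P then 1 else 0 := by
  by_cases hP : P <;> simp [ind, hP]
lemma ind_exists_le {α : Type*} [Fintype α] (P : α → Prop) : ind (∃ a, P a) ≤ ∑ a, ind (P a) := by
  by_cases h : ∃ a, P a
  · obtain ⟨a, ha⟩ := h
    rw [ind_pos ⟨a, ha⟩, ← ind_pos ha]
    exact Finset.single_le_sum (f := fun a => ind (P a)) (fun _ _ => ind_nonneg _)
      (Finset.mem_univ a)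
  · rw [ind_neg h]; exact Finset.sum_nonneg fun _ _ => ind_nonneg _

lemma expect_ind {Ω : Type*} [Fintype Ω] (P : Ω → Prop) [DecidablePred P] :
    𝔼 ω, ind (P ω) = ((Finset.univ.filter P).card : ℝ) / Fintype.card Ω := by
  rw [Fintype.expect_eq_sum_div_card]
  simp [ind_eq_ite]

lemma expect_prod' {A B : Type*} [Fintype A] [Fintype B] (f : A × B → ℝ) :
    𝔼 x, f x = 𝔼 a, 𝔼 b, f (a, b) := by
  rw [← Finset.univ_product_univ, Finset.expect_product]

variable {k n : ℕ}

abbrev Inj (k n : ℕ) : Type := {v : Fin k → Fin n // Function.Injective v}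

lemma card_Inj : Fintype.card (Inj k n) = n.descFactorial k := by
  rw [Fintype.card_congr (Equiv.subtypeInjectiveEquivEmbedding _ _), Fintype.card_embedding_eq]
  simp

lemma nonempty_clause (h : k ≤ n) : Nonempty (Clause k n) :=
  ⟨(⟨Fin.castLE h, Fin.castLE_injective h⟩, fun _ => true)⟩

lemma pow_le_desc (h : k ≤ n) : n ^ k ≤ k ^ k * n.descFactorial k := by
  rw [Nat.descFactorial_eq_prod_range]
  have h1 : n ^ k = ∏ _i ∈ range k, n := by simp
  have h2 : k ^ k = ∏ _i ∈ range k, k := by simp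
  rw [h1, h2, ← Finset.prod_mul_distrib]
  refine Finset.prod_le_prod' fun i hi => ?_
  rw [Finset.mem_range] at hi
  obtain ⟨a, rfl⟩ := Nat.exists_eq_add_of_le h
  obtain ⟨b, rfl⟩ := Nat.exists_eq_add_of_lt hi
  have : i + b + 1 + a - i = b + 1 + a := by omega
  rw [this]
  nlinarith [Nat.zero_le (i * b), Nat.zero_le (i * a), Nat.zero_le (b * b), Nat.zero_le (b * a)]

lemma prob_in (h : k ≤ n) (hn : 0 < n) (A : Fin k → Finset (Fin n)) :
    𝔼 c : Clause k n, ind (∀ j, c.1.1 j ∈ A j) ≤ (k : ℝ) ^ k * ∏ j, (((A j).card : ℝ) / n) := by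
  classical
  rw [expect_prod']
  simp only [Fintype.expect_const]
  rw [expect_ind, card_Inj]
  have h1 : (Finset.univ.filter fun v : Inj k n => ∀ j, v.1 j ∈ A j).card ≤ ∏ j, (A j).card := by
    rw [← Fintype.card_piFinset]
    refine Finset.card_le_card_of_injOn (fun v => v.1) ?_ ?_
    · intro v hv
      simpa using hv
    · intro v _ w _ hvw
      exact Subtype.ext hvw
  have hd : (0 : ℝ) < n.descFactorial k := by exact_mod_cast Nat.descFactorial_pos.2 h
  have h2 : (n : ℝ) ^ k ≤ (k : ℝ) ^ k * n.descFactorial k := by exact_mod_cast pow_le_desc h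
  have h1' : ((Finset.univ.filter fun v : Inj k n => ∀ j, v.1 j ∈ A j).card : ℝ)
      ≤ ∏ j, ((A j).card : ℝ) := by exact_mod_cast h1
  rw [Finset.prod_div_distrib, Finset.prod_const, Finset.card_univ, Fintype.card_fin,
    div_le_iff₀ hd]
  have hP : (0 : ℝ) ≤ ∏ j, ((A j).card : ℝ) := Finset.prod_nonneg fun _ _ => by positivity
  have hn' : (0 : ℝ) < (n : ℝ) ^ k := by positivity
  refine h1'.trans ?_
  rw [mul_comm ((k : ℝ) ^ k), mul_assoc, div_mul_eq_mul_div, le_div_iff₀ hn']
  exact mul_le_mul_of_nonneg_left h2 hP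

lemma card_div_le_one (hn : 0 < n) (F : Finset (Fin n)) : (F.card : ℝ) / n ≤ 1 := by
  rw [div_le_one (by exact_mod_cast hn)]
  exact_mod_cast (Finset.card_le_univ F).trans (by simp)

/-- one variable in `T`, all in `F` -/
lemma prob_one (h : k ≤ n) (hn : 0 < n) (T F : Finset (Fin n)) :
    𝔼 c : Clause k n, ind ((∃ j, c.1.1 j ∈ T) ∧ ∀ j, c.1.1 j ∈ F)
      ≤ (k : ℝ) ^ (k + 1) * ((T.card : ℝ) / n * ((F.card : ℝ) / n) ^ (k - 1)) := by
  classical
  have h1 : ∀ c : Clause k n, ind ((∃ j, c.1.1 j ∈ T) ∧ ∀ j, c.1.1 j ∈ F)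
      ≤ ∑ j, ind (∀ j', c.1.1 j' ∈ (if j' = j then T else F)) := by
    intro c
    refine le_trans (ind_mono ?_) (ind_exists_le _)
    rintro ⟨⟨j, hj⟩, hF⟩
    refine ⟨j, fun j' => ?_⟩
    split_ifs with hh
    · rw [hh]; exact hj
    · exact hF j'
  refine (Finset.expect_le_expect fun c _ => h1 c).trans ?_
  rw [Finset.expect_sum_comm]
  have h2 : ∀ j : Fin k, 𝔼 c : Clause k n, ind (∀ j', c.1.1 j' ∈ (if j' = j then T else F))
      ≤ (k : ℝ) ^ k * ((T.card : ℝ) / n * ((F.card : ℝ) / n) ^ (k - 1)) := by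
    intro j
    refine (prob_in h hn _).trans (le_of_eq ?_)
    congr 1
    rw [← Finset.mul_prod_erase _ _ (Finset.mem_univ j), if_pos rfl,
      Finset.prod_congr rfl (g := fun _ => (F.card : ℝ) / n)]
    · simp [Finset.card_erase_of_mem, div_pow]
    · intro j' hj'
      rw [if_neg (Finset.ne_of_mem_erase hj')]
  refine (Finset.sum_le_sum fun j _ => h2 j).trans (le_of_eq ?_)
  simp [pow_succ]; ring

lemma prob_touch (h : k ≤ n) (hn : 0 < n) (T : Finset (Fin n)) :
    𝔼 c : Clause k n, ind (∃ j, c.1.1 j ∈ T) ≤ (k : ℝ) ^ (k + 1) * ((T.card : ℝ) / n) := by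
  have := prob_one h hn T Finset.univ
  simpa [hn.ne'] using this

lemma prob_var (hk : 3 ≤ k) (h : k ≤ n) (v : Fin n) (F : Finset (Fin n)) :
    𝔼 c : Clause k n, ind ((∃ j, c.1.1 j = v) ∧ ∀ j, c.1.1 j ∈ F)
      ≤ (k : ℝ) ^ (k + 1) / n * ((F.card : ℝ) / n) ^ 2 := by
  have hn : 0 < n := by omega
  have := prob_one h hn {v} F
  simp only [Finset.mem_singleton, Finset.card_singleton, Nat.cast_one] at this
  refine this.trans ?_
  have h2 : ((F.card : ℝ) / n) ^ (k - 1) ≤ ((F.card : ℝ) / n) ^ 2 :=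
    pow_le_pow_of_le_one (by positivity) (card_div_le_one hn F) (by omega)
  calc _ ≤ (k : ℝ) ^ (k + 1) * (1 / n * ((F.card : ℝ) / n) ^ 2) := by gcongr
    _ = _ := by ring

lemma prob_all (hk : 1 ≤ k) (h : k ≤ n) (F : Finset (Fin n)) :
    𝔼 c : Clause k n, ind (∀ j, c.1.1 j ∈ F) ≤ (k : ℝ) ^ k * ((F.card : ℝ) / n) := by
  have hn : 0 < n := by omega
  refine (prob_in h hn fun _ => F).trans ?_
  rw [Finset.prod_const, Finset.card_univ, Fintype.card_fin]
  have h2 : ((F.card : ℝ) / n) ^ k ≤ ((F.card : ℝ) / n) ^ 1 :=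
    pow_le_pow_of_le_one (by positivity) (card_div_le_one hn F) hk
  rw [pow_one] at h2
  gcongr

lemma prob_kill (h : k ≤ n) (hn : 0 < n) (F : Finset (Fin n)) (s : Fin n → Bool) (δ : ℝ)
    (hδ : 0 < δ) (hF : δ * n ≤ F.card) (hδn : 2 * k ≤ δ * n) :
    (δ / 4) ^ k ≤ 𝔼 c : Clause k n, ind (∀ j, c.1.1 j ∈ F ∧ c.2 j = s (c.1.1 j)) := by
  classical
  rw [expect_ind]
  have h1 : F.card.descFactorial k ≤ (Finset.univ.filter fun c : Clause k n =>
      ∀ j, c.1.1 j ∈ F ∧ c.2 j = s (c.1.1 j)).card := by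
    have e : F.card.descFactorial k = (Finset.univ : Finset (Fin k ↪ F)).card := by
      simp [Fintype.card_embedding_eq]
    rw [e]
    refine Finset.card_le_card_of_injOn (fun e => (⟨fun j => (e j).1,
      fun a b hab => e.injective (Subtype.ext hab)⟩, fun j => s (e j).1)) ?_ ?_
    · intro e _
      simp
    · intro e _ e' _ hee
      ext j
      have := congrArg (fun c : Clause k n => c.1.1 j) hee
      simp only at this
      rw [this]
  have h2 : (F.card + 1 - k) ^ k ≤ F.card.descFactorial k := Nat.pow_sub_le_descFactorial _ _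
  have h3 : Fintype.card (Clause k n) ≤ n ^ k * 2 ^ k := by
    rw [Fintype.card_prod, card_Inj]
    simp only [Fintype.card_pi, Fintype.card_bool, Finset.prod_const, Finset.card_univ,
      Fintype.card_fin]
    exact Nat.mul_le_mul_right _ (Nat.descFactorial_le_pow _ _)
  have := nonempty_clause h
  have h4 : (0 : ℝ) < Fintype.card (Clause k n) := by exact_mod_cast Fintype.card_pos
  rw [le_div_iff₀ h4]
  have hkF : k ≤ F.card + 1 := by
    have : (k : ℝ) ≤ F.card + 1 := by
      have : (0 : ℝ) ≤ k := by positivity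
      linarith
    exact_mod_cast this
  have h5 : δ * n / 2 ≤ ((F.card + 1 - k : ℕ) : ℝ) := by
    rw [Nat.cast_sub hkF]; push_cast; linarith
  calc (δ / 4) ^ k * Fintype.card (Clause k n) ≤ (δ / 4) ^ k * ((n : ℝ) ^ k * 2 ^ k) := by
        gcongr; exact_mod_cast h3
    _ = (δ * n / 2) ^ k := by rw [← mul_pow, ← mul_pow]; congr 1; ring
    _ ≤ ((F.card + 1 - k : ℕ) : ℝ) ^ k := by gcongr
    _ ≤ _ := by exact_mod_cast h2.trans h1

lemma prob_sat (h : k ≤ n) (σ : Fin n → Bool) :
    𝔼 c : Clause k n, ind (ClauseSat σ c) = 1 - 1 / 2 ^ k := by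
  classical
  have : Nonempty (Inj k n) := ⟨⟨Fin.castLE h, Fin.castLE_injective h⟩⟩
  rw [expect_prod']
  have h1 : ∀ v : Inj k n, 𝔼 s : Fin k → Bool, ind (ClauseSat σ ((v, s) : Clause k n))
      = 1 - 1 / 2 ^ k := by
    intro v
    have e : ∀ s : Fin k → Bool, ind (ClauseSat σ ((v, s) : Clause k n))
        = 1 - ind (s = fun j => !σ (v.1 j)) := by
      intro s
      rw [← ind_not]
      refine ind_congr ?_
      simp only [ClauseSat, funext_iff, not_forall]
      refine exists_congr fun j => ?_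
      cases σ (v.1 j) <;> cases s j <;> simp
    simp only [e]
    rw [Finset.expect_sub_distrib, Fintype.expect_const, expect_ind]
    simp [Finset.filter_eq']
  simp only [h1]
  exact Fintype.expect_const _

end Crest.Agent.R153A
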