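import Crest.Agent.R153A.Model

/-!
Once the backbone exceeds a fraction `δ`, the process dies at a geometric rate.
-/

set_option autoImplicit false
open Finset BigOperators Crest.ProbabilityR.RandomSAT

namespace Crest.Agent.R153A

variable {k n M : ℕ}

noncomputable def aa (k : ℕ) (δ : ℝ) (D : Mdl n M) (m t : ℕ) : ℝ :=
  𝔼 ω : Fin M → Clause k n, W D.T ω * (al D ω t * ind (δ < beta D ω m))

lemma aa_nonneg (δ : ℝ) (D : Mdl n M) (m t : ℕ) : 0 ≤ aa k δ D m t :=
  Finset.expect_nonneg fun _ _ =>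
    mul_nonneg (W_pos _ _).le (mul_nonneg (al_nonneg _ _ _) (ind_nonneg _))

lemma aa_succ_le (δ : ℝ) (D : Mdl n M) (m t : ℕ) : aa k δ D m (t + 1) ≤ aa k δ D m t :=
  Finset.expect_le_expect fun ω _ => mul_le_mul_of_nonneg_left
    (mul_le_mul_of_nonneg_right (al_anti D ω (Nat.le_succ t)) (ind_nonneg _)) (W_pos _ _).le

lemma one_step (h : k ≤ n) (hn : 0 < n) {δ p : ℝ} (hδ : 0 < δ) (hδn : 2 * k ≤ δ * n)
    (hp0 : 0 ≤ p) (hp : p * 2 ^ k ≤ (δ / 4) ^ k) (D : Mdl n M) (j : Fin M) (hj : D.B j ⊆ D.T) {m : ℕ}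
    (hm : m ≤ j.val) : aa k δ D m (j.val + 1) ≤ (1 - p) * aa k δ D m j.val := by
  have := nonempty_clause h
  unfold aa
  rw [expect_update j, expect_update j (fun ω => W D.T ω * (al D ω j.val * _)), Finset.mul_expect]
  refine Finset.expect_le_expect fun ω _ => ?_
  have e1 : ∀ c, beta D (Function.update ω j c) m = beta D ω m := fun c => by
    unfold beta; rw [Sol_update_ge D ω j c hm]
  have e2 : ∀ c, al D (Function.update ω j c) j.val = al D ω j.val := fun c => by
    unfold al; rw [Sol_update_ge D ω j c le_rfl]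
  have e3 : ∀ c, W D.T (Function.update ω j c)
      = wt D.T c * ∏ i ∈ Finset.univ.erase j, wt D.T (ω i) := fun c =>
    prod_update' (fun _ => wt D.T) ω j c
  simp only [e1, e2, e3]
  set R := ∏ i ∈ Finset.univ.erase j, wt D.T (ω i)
  have hR : 0 ≤ R := Finset.prod_nonneg fun i _ => le_trans zero_le_one (one_le_wt _ _)
  by_cases hb : δ < beta D ω m
  swap
  · simp [ind_neg hb]
  simp only [ind_pos hb, mul_one]
  have hb2 : δ * n ≤ ((Fr (Sol D ω j.val) \ D.T).card : ℝ) := by
    have := hb.le.trans (beta_mono D ω hm)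
    unfold beta at this
    rwa [le_div_iff₀ (by exact_mod_cast hn)] at this
  obtain ⟨s, hs⟩ : ∃ s : Fin n → Bool, ∀ v ∈ Fr (Sol D ω j.val), ∀ σ ∈ Sol D ω j.val, σ v ≠ s v := by
    have : ∀ v, ∃ s : Bool, v ∈ Fr (Sol D ω j.val) → ∀ σ ∈ Sol D ω j.val, σ v ≠ s := by
      intro v
      by_cases hv : v ∈ Fr (Sol D ω j.val)
      · obtain ⟨s, hs⟩ := mem_Fr.1 hv
        exact ⟨s, fun _ => hs⟩
      · exact ⟨true, fun h => absurd h hv⟩
    choose s hs using this
    exact ⟨s, hs⟩
  have hk := prob_kill h hn _ s δ hδ hb2 hδn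
  have h1 : ∀ c : Clause k n, wt D.T c * R * al D (Function.update ω j c) (j.val + 1)
      ≤ (wt D.T c - ind (∀ i, c.1.1 i ∈ Fr (Sol D ω j.val) \ D.T ∧ c.2 i = s (c.1.1 i)))
        * (R * al D ω j.val) := by
    intro c
    have hw := one_le_wt D.T c
    have ha := al_nonneg D ω j.val
    by_cases hc : ∀ i, c.1.1 i ∈ Fr (Sol D ω j.val) \ D.T ∧ c.2 i = s (c.1.1 i)
    · rw [ind_pos hc]
      have : al D (Function.update ω j c) (j.val + 1) = 0 := by
        refine ind_neg ?_
        rintro ⟨σ, hσ⟩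
        have hσ' : σ ∈ Sol D ω j.val := by
          rw [← Sol_update_ge D ω j c le_rfl]
          exact Sol_anti _ _ (Nat.le_succ _) hσ
        have h2 := hσ.2 j (Nat.lt_succ_self _)
        rw [Function.update_self] at h2
        obtain ⟨i, hi⟩ := h2 fun ⟨i, hi⟩ => (Finset.mem_sdiff.1 (hc i).1).2 (hj hi)
        exact hs _ (Finset.mem_sdiff.1 (hc i).1).1 σ hσ' (hi.trans (hc i).2)
      rw [this, mul_zero]
      have := sub_nonneg.2 hw
      positivity
    · rw [ind_neg hc, sub_zero, mul_assoc]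
      have := (al_anti D (Function.update ω j c) (Nat.le_succ j.val)).trans (e2 c).le
      gcongr
  refine (Finset.expect_le_expect fun c _ => h1 c).trans ?_
  rw [← Finset.expect_mul, Finset.expect_sub_distrib]
  simp only [mul_assoc]
  rw [← Finset.expect_mul, ← mul_assoc (1 - p)]
  refine mul_le_mul_of_nonneg_right ?_ (mul_nonneg hR (al_nonneg _ _ _))
  have h3 : 𝔼 c : Clause k n, wt D.T c ≤ 2 ^ k :=
    Finset.expect_le Finset.univ_nonempty fun c _ => wt_le _ c
  nlinarith [mul_le_mul_of_nonneg_left h3 hp0]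

lemma aa_chain (h : k ≤ n) (hn : 0 < n) {δ p : ℝ} (hδ : 0 < δ) (hδn : 2 * k ≤ δ * n)
    (hp0 : 0 ≤ p) (hp1 : p ≤ 1 / 2) (hp : p * 2 ^ k ≤ (δ / 4) ^ k) (D : Mdl n M) (m t : ℕ)
    (hmt : m ≤ t) (ht : t ≤ M) :
    aa k δ D m t ≤ (1 - p) ^ (t - m) * 2 ^ ((dead D).filter fun i => i.val < t).card
      * aa k δ D m m := by
  induction t, hmt using Nat.le_induction with
  | base =>
    have := aa_nonneg (k := k) δ D m m
    have h2 : (1 : ℝ) ≤ 2 ^ ((dead D).filter fun i => i.val < m).card := one_le_pow₀ (by norm_num)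
    rw [Nat.sub_self, pow_zero, one_mul]
    nlinarith
  | succ t hmt ih =>
    have ih := ih (by omega)
    have ht' : t < M := ht
    have h0 := aa_nonneg (k := k) δ D m m
    have hq : 0 ≤ 1 - p := by linarith
    have hsub : ((dead D).filter fun i => i.val < t) ⊆ (dead D).filter fun i => i.val < t + 1 := by
      intro i hi
      rw [Finset.mem_filter] at hi ⊢
      exact ⟨hi.1, by omega⟩
    rw [show t + 1 - m = (t - m) + 1 by omega, pow_succ]
    by_cases hj : D.B ⟨t, ht'⟩ ⊆ D.T
    · have h1 := one_step h hn hδ hδn hp0 hp D ⟨t, ht'⟩ hj hmt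
      have h2 : (2 : ℝ) ^ ((dead D).filter fun i => i.val < t).card
          ≤ 2 ^ ((dead D).filter fun i => i.val < t + 1).card :=
        pow_le_pow_right₀ (by norm_num) (Finset.card_le_card hsub)
      calc _ ≤ (1 - p) * aa k δ D m t := h1
        _ ≤ (1 - p) * ((1 - p) ^ (t - m) * 2 ^ ((dead D).filter fun i => i.val < t + 1).card
            * aa k δ D m m) := by
          gcongr
          exact ih.trans (by gcongr)
        _ = _ := by ring
    · have h2 : (2 : ℝ) ^ (((dead D).filter fun i => i.val < t).card + 1)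
          ≤ 2 ^ ((dead D).filter fun i => i.val < t + 1).card := by
        refine pow_le_pow_right₀ (by norm_num) (Finset.card_lt_card ⟨hsub, fun hh => ?_⟩)
        have : (⟨t, ht'⟩ : Fin M) ∈ (dead D).filter fun i => i.val < t + 1 := by
          simp [dead, hj]
        have := hh this
        simp at this
      calc _ ≤ aa k δ D m t := aa_succ_le δ D m t
        _ ≤ _ := ih
        _ = (1 - p) ^ (t - m) * (1 / 2) * 2 ^ (((dead D).filter fun i => i.val < t).card + 1)
            * aa k δ D m m := by ring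
        _ ≤ _ := by gcongr; linarith

lemma geom_le {q : ℝ} (h0 : 0 ≤ q) (h1 : q < 1) (N : ℕ) : ∑ i ∈ range N, q ^ i ≤ 1 / (1 - q) := by
  rw [le_div_iff₀ (by linarith), geom_sum_mul_neg]
  have := pow_nonneg h0 N
  linarith

lemma sum_drop_le_G {ρ : ℝ} (hρ : 1 ≤ ρ) (D : Mdl n M) (ω : Fin M → Clause k n) :
    ∑ m ∈ range M, ρ ^ (2 * m) * (al D ω m - al D ω (m + 1)) ≤ G ρ D ω := by
  have hG := G_pos hρ D ω
  calc _ ≤ ∑ m ∈ range M, G ρ D ω * (al D ω m - al D ω (m + 1)) := by
        refine Finset.sum_le_sum fun m hm => ?_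
        rw [Finset.mem_range] at hm
        have h1 := pow_al_le_G hρ D ω hm (le_refl (2 * m))
        have h2 := al_anti D ω (Nat.le_succ m)
        by_cases hs : (Sol D ω m).Nonempty
        · have e : al D ω m = 1 := ind_pos hs
          rw [e, mul_one] at h1
          exact mul_le_mul_of_nonneg_right h1 (sub_nonneg.2 h2)
        · have e : al D ω m = 0 := ind_neg hs
          have e2 : al D ω (m + 1) = 0 := le_antisymm (e ▸ h2) (al_nonneg _ _ _)
          simp [e, e2]
    _ ≤ _ := by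
        rw [← Finset.mul_sum, Finset.sum_range_sub']
        have := al_le_one D ω 0
        have := al_nonneg D ω M
        nlinarith

lemma diag_le (h : k ≤ n) (hn : 0 < n) {δ p ρ : ℝ} (hδ : 0 < δ) (hδn : 2 * k ≤ δ * n)
    (hp0 : 0 < p) (hp : p * 2 ^ k ≤ (δ / 4) ^ k) (hρ : 1 ≤ ρ) (D : Mdl n M) :
    ∑ m ∈ range M, ρ ^ (2 * m) * aa k δ D m m
      ≤ (1 / p + (dead D).card) * 𝔼 ω : Fin M → Clause k n, W D.T ω * G ρ D ω := by
  set Z := 𝔼 ω : Fin M → Clause k n, W D.T ω * G ρ D ω
  have hZ : 0 ≤ Z := Finset.expect_nonneg fun ω _ => (mul_pos (W_pos _ _) (G_pos hρ _ _)).le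
  set b : ℕ → ℝ := fun m => 𝔼 ω : Fin M → Clause k n,
    W D.T ω * (ρ ^ (2 * m) * (al D ω m - al D ω (m + 1))) with hb
  have hb0 : ∀ m, 0 ≤ b m := fun m => Finset.expect_nonneg fun ω _ => by
    have := sub_nonneg.2 (al_anti D ω (Nat.le_succ m))
    have := W_pos D.T ω
    positivity
  have h1 : ∀ j : Fin M, ρ ^ (2 * j.val) * aa k δ D j.val j.val
      ≤ 1 / p * b j.val + ind (j ∈ dead D) * Z := by
    intro j
    by_cases hj : D.B j ⊆ D.T
    · have h2 := one_step h hn hδ hδn hp0.le hp D j hj le_rfl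
      have h3 : ρ ^ (2 * j.val) * (aa k δ D j.val j.val - aa k δ D j.val (j.val + 1)) ≤ b j.val := by
        unfold aa
        rw [← Finset.expect_sub_distrib, Finset.mul_expect]
        refine Finset.expect_le_expect fun ω _ => ?_
        have h4 := sub_nonneg.2 (al_anti D ω (Nat.le_succ j.val))
        have h5 := W_pos D.T ω
        have h6 := ind_le_one (δ < beta D ω j.val)
        calc _ = W D.T ω * (ρ ^ (2 * j.val) * (al D ω j.val - al D ω (j.val + 1)))
            * ind (δ < beta D ω j.val) := by ring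
          _ ≤ _ := mul_le_of_le_one_right (by positivity) h6
      have h4 : 0 ≤ ind (j ∈ dead D) * Z := mul_nonneg (ind_nonneg _) hZ
      have h5 : p * (ρ ^ (2 * j.val) * aa k δ D j.val j.val) ≤ b j.val := by
        have : (0 : ℝ) ≤ ρ ^ (2 * j.val) := by positivity
        nlinarith [mul_le_mul_of_nonneg_left h2 this]
      have h6 : ρ ^ (2 * j.val) * aa k δ D j.val j.val ≤ 1 / p * b j.val := by
        rw [one_div, inv_mul_eq_div, le_div_iff₀ hp0]; linarith
      linarith
    · have h2 : j ∈ dead D := by simp [dead, hj]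
      rw [ind_pos h2, one_mul]
      have h3 : ρ ^ (2 * j.val) * aa k δ D j.val j.val ≤ Z := by
        unfold aa
        rw [Finset.mul_expect]
        refine Finset.expect_le_expect fun ω _ => ?_
        have h4 := pow_al_le_G hρ D ω j.2 (le_refl (2 * j.val))
        have h5 := W_pos D.T ω
        have h6 := ind_le_one (δ < beta D ω j.val)
        have h7 := al_nonneg D ω j.val
        calc _ = W D.T ω * (ρ ^ (2 * j.val) * al D ω j.val) * ind (δ < beta D ω j.val) := by ring
          _ ≤ W D.T ω * (ρ ^ (2 * j.val) * al D ω j.val) :=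
            mul_le_of_le_one_right (by positivity) h6
          _ ≤ _ := by gcongr
      have := hb0 j.val
      have : 0 ≤ 1 / p * b j.val := by positivity
      linarith
  rw [← Fin.sum_univ_eq_sum_range (fun m => ρ ^ (2 * m) * aa k δ D m m)]
  refine (Finset.sum_le_sum fun j _ => h1 j).trans ?_
  rw [Finset.sum_add_distrib, ← Finset.mul_sum, ← Finset.sum_mul, add_mul,
    Fin.sum_univ_eq_sum_range b]
  refine add_le_add (mul_le_mul_of_nonneg_left ?_ (by positivity)) (le_of_eq ?_)
  · simp only [hb]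
    rw [← Finset.expect_sum_comm]
    refine Finset.expect_le_expect fun ω _ => ?_
    rw [← Finset.mul_sum]
    exact mul_le_mul_of_nonneg_left (sum_drop_le_G hρ D ω) (W_pos _ _).le
  · simp [ind_eq_ite]

/-- the contribution of times with a large backbone -/
lemma hazard (h : k ≤ n) (hn : 0 < n) {δ p ρ : ℝ} (hδ : 0 < δ) (hδn : 2 * k ≤ δ * n)
    (hp0 : 0 < p) (hp1 : p ≤ 1 / 2) (hp : p * 2 ^ k ≤ (δ / 4) ^ k) (hρ : 1 ≤ ρ)
    (hρ' : ρ ≤ 1 + p / 2) (D : Mdl n M) {d : ℕ} (hd : (dead D).card ≤ d) :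
    𝔼 ω : Fin M → Clause k n, W D.T ω * Q ρ D ω (fun m => ind (δ < beta D ω m))
      ≤ 4 ^ d * (4 / p ^ 2) * 𝔼 ω : Fin M → Clause k n, W D.T ω * G ρ D ω := by
  set Z := 𝔼 ω : Fin M → Clause k n, W D.T ω * G ρ D ω
  have hZ : 0 ≤ Z := Finset.expect_nonneg fun ω _ => (mul_pos (W_pos _ _) (G_pos hρ _ _)).le
  have e : 𝔼 ω : Fin M → Clause k n, W D.T ω * Q ρ D ω (fun m => ind (δ < beta D ω m))
      = ∑ t ∈ range M, ∑ m ∈ range (t + 1), ρ ^ (m + t) * aa k δ D m t := by
    simp only [Q, aa, Finset.mul_sum, Finset.expect_sum_comm, Finset.mul_expect]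
    refine Finset.sum_congr rfl fun t _ => Finset.sum_congr rfl fun m _ =>
      Finset.expect_congr rfl fun ω _ => by ring
  rw [e]
  have hq : 0 ≤ 1 - p := by linarith
  set q := ρ * (1 - p) with hqdef
  have hq0 : 0 ≤ q := by positivity
  have hq1 : q ≤ 1 - p / 2 := by nlinarith
  calc _ ≤ ∑ t ∈ range M, ∑ m ∈ range (t + 1),
          q ^ (t - m) * (2 ^ d * (ρ ^ (2 * m) * aa k δ D m m)) := by
        refine Finset.sum_le_sum fun t ht => Finset.sum_le_sum fun m hm => ?_
        rw [Finset.mem_range] at ht hm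
        have h1 := aa_chain h hn hδ hδn hp0.le hp1 hp D m t (by omega) ht.le
        have h2 : (2 : ℝ) ^ ((dead D).filter fun i => i.val < t).card ≤ 2 ^ d :=
          pow_le_pow_right₀ (by norm_num) ((Finset.card_filter_le _ _).trans hd)
        have h3 := aa_nonneg (k := k) δ D m m
        calc _ ≤ ρ ^ (m + t) * ((1 - p) ^ (t - m) * 2 ^ d * aa k δ D m m) := by
              gcongr
              exact h1.trans (by gcongr)
          _ = _ := by
              rw [show m + t = (t - m) + 2 * m by omega, pow_add, hqdef, mul_pow]; ring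
    _ = ∑ m ∈ range M, (∑ t ∈ Ico m M, q ^ (t - m)) * (2 ^ d * (ρ ^ (2 * m) * aa k δ D m m)) := by
        simp only [Finset.range_eq_Ico, Finset.sum_mul]
        rw [← Finset.sum_Ico_Ico_comm]
    _ ≤ ∑ m ∈ range M, (2 / p) * (2 ^ d * (ρ ^ (2 * m) * aa k δ D m m)) := by
        refine Finset.sum_le_sum fun m _ => ?_
        have h3 := aa_nonneg (k := k) δ D m m
        refine mul_le_mul_of_nonneg_right ?_ (by positivity)
        rw [Finset.sum_Ico_eq_sum_range]
        simp only [Nat.add_sub_cancel_left]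
        refine (geom_le hq0 (by linarith) _).trans ?_
        rw [div_le_div_iff₀ (by linarith) hp0]
        linarith
    _ ≤ (2 / p) * (2 ^ d * ((1 / p + (dead D).card) * Z)) := by
        rw [← Finset.mul_sum, ← Finset.mul_sum]
        gcongr
        exact diag_le h hn hδ hδn hp0 hp hρ D
    _ ≤ (2 / p) * (2 ^ d * ((2 ^ d * (2 / p)) * Z)) := by
        gcongr
        have h1 : ((dead D).card : ℝ) ≤ 2 ^ d := by
          have : (dead D).card ≤ 2 ^ d := hd.trans (Nat.lt_two_pow_self).le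
          exact_mod_cast this
        have h2 : (1 : ℝ) ≤ 2 ^ d := one_le_pow₀ (by norm_num)
        have h3 : 1 ≤ 1 / p := by rw [le_div_iff₀ hp0]; linarith
        have e : 2 / p = 1 / p + 1 / p := by ring
        rw [e]
        nlinarith
    _ = _ := by
        rw [show (4 : ℝ) ^ d = 2 ^ d * 2 ^ d by rw [← mul_pow]; norm_num]
        field_simp
        ring

end Crest.Agent.R153A
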