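import Crest.Agent.R153A.Cl

/-!
Clause processes with forced variables and idle clauses; deterministic lemmas.
-/

set_option autoImplicit false
open Finset BigOperators Crest.ProbabilityR.RandomSAT

namespace Crest.Agent.R153A

lemma sq_sum_bounds (x : ℕ → ℝ) (hx : ∀ t, 0 ≤ x t) (M : ℕ) :
    (∑ t ∈ range M, ∑ m ∈ range (t + 1), x m * x t) ≤ (∑ t ∈ range M, x t) ^ 2 ∧
    (∑ t ∈ range M, x t) ^ 2 ≤ 2 * ∑ t ∈ range M, ∑ m ∈ range (t + 1), x m * x t := by
  induction M with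
  | zero => simp
  | succ M ih =>
    rw [Finset.sum_range_succ (fun t => ∑ m ∈ range (t + 1), x m * x t), Finset.sum_range_succ x,
      Finset.sum_range_succ (fun m => x m * x M), ← Finset.sum_mul]
    have h1 : 0 ≤ ∑ t ∈ range M, x t := Finset.sum_nonneg fun t _ => hx t
    have h2 := mul_nonneg h1 (hx M)
    constructor <;> nlinarith [ih.1, ih.2, sq_nonneg (x M)]

lemma anti_card (a : ℕ → Prop) [DecidablePred a] (ha : ∀ s t, s ≤ t → a t → a s) {M t : ℕ}
    (ht : t < M) : a t ↔ t < ((range M).filter a).card := by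
  constructor
  · intro h
    have : range (t + 1) ⊆ (range M).filter a := by
      intro s hs
      rw [Finset.mem_range] at hs
      exact Finset.mem_filter.2 ⟨Finset.mem_range.2 (by omega), ha s t (by omega) h⟩
    have := Finset.card_le_card this
    rw [Finset.card_range] at this
    omega
  · intro h
    by_contra hn
    have : (range M).filter a ⊆ range t := by
      intro s hs
      rw [Finset.mem_range]
      by_contra hc
      exact hn (ha t s (by omega) (Finset.mem_filter.1 hs).2)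
    have := Finset.card_le_card this
    rw [Finset.card_range] at this
    omega

structure Mdl (n M : ℕ) where
  T : Finset (Fin n)
  τ : Fin n → Bool
  B : Fin M → Finset (Fin n)

variable {k n M : ℕ}

def touch (c : Clause k n) (A : Finset (Fin n)) : Prop := ∃ j, c.1.1 j ∈ A

def Sol (D : Mdl n M) (ω : Fin M → Clause k n) (m : ℕ) : Set (Fin n → Bool) :=
  {σ | (∀ v ∈ D.T, σ v = D.τ v) ∧
    ∀ i : Fin M, i.val < m → ¬ touch (ω i) (D.B i) → ClauseSat σ (ω i)}

noncomputable def al (D : Mdl n M) (ω : Fin M → Clause k n) (m : ℕ) : ℝ :=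
  ind (Sol D ω m).Nonempty

noncomputable def Hn (D : Mdl n M) (ω : Fin M → Clause k n) : ℕ := by
  classical exact ((range M).filter fun t => (Sol D ω t).Nonempty).card

noncomputable def Y (ρ : ℝ) (D : Mdl n M) (ω : Fin M → Clause k n) : ℝ :=
  ∑ t ∈ range M, ρ ^ t * al D ω t

noncomputable def G (ρ : ℝ) (D : Mdl n M) (ω : Fin M → Clause k n) : ℝ := ρ ^ (2 * Hn D ω)

noncomputable def Q (ρ : ℝ) (D : Mdl n M) (ω : Fin M → Clause k n) (φ : ℕ → ℝ) : ℝ :=
  ∑ t ∈ range M, ∑ m ∈ range (t + 1), ρ ^ (m + t) * (al D ω t * φ m)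

noncomputable def Fr (S : Set (Fin n → Bool)) : Finset (Fin n) := by
  classical exact Finset.univ.filter fun v => ∃ s, ∀ σ ∈ S, σ v ≠ s

noncomputable def beta (D : Mdl n M) (ω : Fin M → Clause k n) (m : ℕ) : ℝ :=
  ((Fr (Sol D ω m) \ D.T).card : ℝ) / n

noncomputable def wt (T : Finset (Fin n)) (c : Clause k n) : ℝ :=
  2 ^ (Finset.univ.filter fun j => c.1.1 j ∈ T).card

noncomputable def W (T : Finset (Fin n)) (ω : Fin M → Clause k n) : ℝ := ∏ i, wt T (ω i)

def kill (D : Mdl n M) (t : Fin M) : Mdl n M := ⟨D.T, D.τ, Function.update D.B t Finset.univ⟩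

def dead (D : Mdl n M) : Finset (Fin M) := Finset.univ.filter fun i => ¬ D.B i ⊆ D.T

def kills (c : Clause k n) (S : Set (Fin n → Bool)) : Prop := ∀ σ ∈ S, ¬ ClauseSat σ c

def base (n M : ℕ) : Mdl n M := ⟨∅, fun _ => true, fun _ => ∅⟩

lemma Sol_anti (D : Mdl n M) (ω : Fin M → Clause k n) {s t : ℕ} (h : s ≤ t) :
    Sol D ω t ⊆ Sol D ω s := fun _ hσ => ⟨hσ.1, fun i hi => hσ.2 i (by omega)⟩

lemma al_nonneg (D : Mdl n M) (ω : Fin M → Clause k n) (m : ℕ) : 0 ≤ al D ω m := ind_nonneg _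
lemma al_le_one (D : Mdl n M) (ω : Fin M → Clause k n) (m : ℕ) : al D ω m ≤ 1 := ind_le_one _

lemma al_anti (D : Mdl n M) (ω : Fin M → Clause k n) {s t : ℕ} (h : s ≤ t) :
    al D ω t ≤ al D ω s := ind_mono fun hh => hh.mono (Sol_anti D ω h)

lemma lt_Hn (D : Mdl n M) (ω : Fin M → Clause k n) {t : ℕ} (ht : t < M) :
    (Sol D ω t).Nonempty ↔ t < Hn D ω := by
  classical
  unfold Hn
  convert anti_card (fun t => (Sol D ω t).Nonempty)
    (fun s t h hh => hh.mono (Sol_anti D ω h)) ht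

lemma Hn_le (D : Mdl n M) (ω : Fin M → Clause k n) : Hn D ω ≤ M := by
  classical
  unfold Hn
  exact (Finset.card_filter_le _ _).trans (by simp)

lemma Hn_eq_sum (D : Mdl n M) (ω : Fin M → Clause k n) :
    (Hn D ω : ℝ) = ∑ t ∈ range M, al D ω t := by
  classical
  unfold Hn al
  simp [ind_eq_ite]

lemma Hn_mono {D D' : Mdl n M} {ω ω' : Fin M → Clause k n}
    (h : ∀ t, (Sol D ω t).Nonempty → (Sol D' ω' t).Nonempty) : Hn D ω ≤ Hn D' ω' := by
  classical
  unfold Hn
  refine Finset.card_le_card fun t ht => ?_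
  rw [Finset.mem_filter] at ht ⊢
  exact ⟨ht.1, h t ht.2⟩

lemma Y_geom (ρ : ℝ) (D : Mdl n M) (ω : Fin M → Clause k n) :
    (ρ - 1) * Y ρ D ω = ρ ^ Hn D ω - 1 := by
  rw [← geom_sum_mul, mul_comm]
  congr 1
  unfold Y
  rw [← Finset.sum_subset (Finset.range_subset_range.2 (Hn_le D ω))]
  · refine Finset.sum_congr rfl fun t ht => ?_
    rw [Finset.mem_range] at ht
    rw [al, ind_pos ((lt_Hn D ω (lt_of_lt_of_le ht (Hn_le D ω))).2 ht), mul_one]
  · intro t ht ht'
    rw [Finset.mem_range] at ht ht'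
    rw [al, ind_neg (fun h => ht' ((lt_Hn D ω ht).1 h)), mul_zero]

lemma G_pos {ρ : ℝ} (hρ : 1 ≤ ρ) (D : Mdl n M) (ω : Fin M → Clause k n) : 0 < G ρ D ω := by
  unfold G; positivity

lemma pow_al_le_G {ρ : ℝ} (hρ : 1 ≤ ρ) (D : Mdl n M) (ω : Fin M → Clause k n) {m t : ℕ}
    (ht : t < M) (hm : m ≤ 2 * t) : ρ ^ m * al D ω t ≤ G ρ D ω := by
  by_cases h : (Sol D ω t).Nonempty
  · rw [al, ind_pos h, mul_one]
    have := (lt_Hn D ω ht).1 h
    exact pow_le_pow_right₀ hρ (by omega)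
  · rw [al, ind_neg h, mul_zero]; exact (G_pos hρ D ω).le

lemma Q_mono {ρ : ℝ} (hρ : 1 ≤ ρ) (D : Mdl n M) (ω : Fin M → Clause k n) {φ ψ : ℕ → ℝ}
    (h : ∀ m, φ m ≤ ψ m) : Q ρ D ω φ ≤ Q ρ D ω ψ := by
  unfold Q
  refine Finset.sum_le_sum fun t _ => Finset.sum_le_sum fun m _ => ?_
  have := al_nonneg D ω t
  have := h m
  gcongr

lemma Q_add (ρ : ℝ) (D : Mdl n M) (ω : Fin M → Clause k n) (φ ψ : ℕ → ℝ) :
    Q ρ D ω (fun m => φ m + ψ m) = Q ρ D ω φ + Q ρ D ω ψ := by
  simp only [Q, mul_add, Finset.sum_add_distrib]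

lemma Q_mul (ρ : ℝ) (D : Mdl n M) (ω : Fin M → Clause k n) (a : ℝ) (φ : ℕ → ℝ) :
    Q ρ D ω (fun m => a * φ m) = a * Q ρ D ω φ := by
  simp only [Q, Finset.mul_sum]
  exact Finset.sum_congr rfl fun t _ => Finset.sum_congr rfl fun m _ => by ring

lemma Q_sum {α : Type*} (s : Finset α) (ρ : ℝ) (D : Mdl n M) (ω : Fin M → Clause k n)
    (φ : α → ℕ → ℝ) : Q ρ D ω (fun m => ∑ a ∈ s, φ a m) = ∑ a ∈ s, Q ρ D ω (φ a) := by
  simp only [Q, Finset.mul_sum]
  rw [Finset.sum_comm (s := s)]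
  refine Finset.sum_congr rfl fun t _ => ?_
  rw [Finset.sum_comm]

lemma Q_expect {α : Type*} [Fintype α] (ρ : ℝ) (D : Mdl n M) (ω : Fin M → Clause k n)
    (φ : α → ℕ → ℝ) : 𝔼 a, Q ρ D ω (φ a) = Q ρ D ω (fun m => 𝔼 a, φ a m) := by
  simp only [Q, Finset.expect_sum_comm, Finset.mul_expect]

lemma Q_nonneg {ρ : ℝ} (hρ : 1 ≤ ρ) (D : Mdl n M) (ω : Fin M → Clause k n) {φ : ℕ → ℝ}
    (h : ∀ m, 0 ≤ φ m) : 0 ≤ Q ρ D ω φ := by
  unfold Q
  refine Finset.sum_nonneg fun t _ => Finset.sum_nonneg fun m _ => ?_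
  have := al_nonneg D ω t
  have := h m
  positivity

lemma Q_one_le {ρ : ℝ} (hρ : 1 ≤ ρ) (D : Mdl n M) (ω : Fin M → Clause k n) :
    Q ρ D ω (fun _ => 1) ≤ (M : ℝ) ^ 2 * G ρ D ω := by
  unfold Q
  have hG := G_pos hρ D ω
  calc _ ≤ ∑ t ∈ range M, (M : ℝ) * G ρ D ω := by
        refine Finset.sum_le_sum fun t ht => ?_
        rw [Finset.mem_range] at ht
        calc _ ≤ ∑ m ∈ range (t + 1), G ρ D ω := by
              refine Finset.sum_le_sum fun m hm => ?_
              rw [Finset.mem_range] at hm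
              rw [mul_one]
              exact pow_al_le_G hρ D ω ht (by omega)
          _ ≤ _ := by
              rw [Finset.sum_const, Finset.card_range, nsmul_eq_mul]
              gcongr
              omega
    _ = _ := by simp; ring

/-- comparison of `Q` of a monotone event with the square of the loss -/
lemma Q_sq {ρ : ℝ} (hρ : 1 ≤ ρ) (D : Mdl n M) (ω : Fin M → Clause k n) (κ : ℕ → Prop)
    (hκ : ∀ s t, s ≤ t → κ s → κ t) :
    Q ρ D ω (fun m => ind (κ m)) ≤ (∑ t ∈ range M, ρ ^ t * (al D ω t * ind (κ t))) ^ 2 ∧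
    (∑ t ∈ range M, ρ ^ t * (al D ω t * ind (κ t))) ^ 2 ≤ 2 * Q ρ D ω (fun m => ind (κ m)) := by
  have h := sq_sum_bounds (fun t => ρ ^ t * (al D ω t * ind (κ t)))
    (fun t => by have := al_nonneg D ω t; have := ind_nonneg (κ t); positivity) M
  have e : Q ρ D ω (fun m => ind (κ m)) = ∑ t ∈ range M, ∑ m ∈ range (t + 1),
      ρ ^ m * (al D ω m * ind (κ m)) * (ρ ^ t * (al D ω t * ind (κ t))) := by
    unfold Q
    refine Finset.sum_congr rfl fun t _ => Finset.sum_congr rfl fun m hm => ?_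
    rw [Finset.mem_range] at hm
    have hmt : m ≤ t := by omega
    by_cases h1 : (Sol D ω t).Nonempty
    · by_cases h2 : κ m
      · simp only [al, ind_pos h1, ind_pos h2, ind_pos (hκ m t hmt h2),
          ind_pos (h1.mono (Sol_anti D ω hmt)), pow_add, mul_one]
      · simp [ind_neg h2]
    · simp [al, ind_neg h1]
  rw [e]
  exact h

lemma Fr_mono {S S' : Set (Fin n → Bool)} (h : S ⊆ S') : Fr S' ⊆ Fr S := by
  classical
  intro v hv
  simp only [Fr, Finset.mem_filter, Finset.mem_univ, true_and] at hv ⊢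
  obtain ⟨s, hs⟩ := hv
  exact ⟨s, fun σ hσ => hs σ (h hσ)⟩

lemma mem_Fr {S : Set (Fin n → Bool)} {v : Fin n} : v ∈ Fr S ↔ ∃ s, ∀ σ ∈ S, σ v ≠ s := by
  classical
  simp only [Fr, Finset.mem_filter, Finset.mem_univ, true_and]

lemma beta_mono (D : Mdl n M) (ω : Fin M → Clause k n) {s t : ℕ} (h : s ≤ t) :
    beta D ω s ≤ beta D ω t := by
  unfold beta
  gcongr
  exact Fr_mono (Sol_anti D ω h)

lemma beta_nonneg (D : Mdl n M) (ω : Fin M → Clause k n) (m : ℕ) : 0 ≤ beta D ω m := by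
  unfold beta; positivity

lemma beta_le_one (hn : 0 < n) (D : Mdl n M) (ω : Fin M → Clause k n) (m : ℕ) :
    beta D ω m ≤ 1 := card_div_le_one hn _

lemma Fr_card_le (D : Mdl n M) (ω : Fin M → Clause k n) (m : ℕ) :
    ((Fr (Sol D ω m)).card : ℝ) / n ≤ beta D ω m + (D.T.card : ℝ) / n := by
  unfold beta
  rw [← add_div]
  gcongr
  exact_mod_cast Finset.card_le_card_sdiff_add_card

lemma kills_Fr {c : Clause k n} {S : Set (Fin n → Bool)} (h : kills c S) (j : Fin k) :
    c.1.1 j ∈ Fr S :=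
  mem_Fr.2 ⟨c.2 j, fun σ hσ hh => h σ hσ ⟨j, hh⟩⟩

lemma kills_mono {c : Clause k n} {S S' : Set (Fin n → Bool)} (h : S ⊆ S') (hk : kills c S') :
    kills c S := fun σ hσ => hk σ (h hσ)

lemma one_le_wt (T : Finset (Fin n)) (c : Clause k n) : 1 ≤ wt T c :=
  one_le_pow₀ (by norm_num)

lemma wt_le (T : Finset (Fin n)) (c : Clause k n) : wt T c ≤ 2 ^ k :=
  pow_le_pow_right₀ (by norm_num) ((Finset.card_le_univ _).trans (by simp))

lemma wt_of_not_touch {T : Finset (Fin n)} {c : Clause k n} (h : ¬ touch c T) : wt T c = 1 := by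
  unfold wt
  rw [Finset.filter_eq_empty_iff.2 fun j _ hj => h ⟨j, hj⟩]
  simp

lemma W_pos (T : Finset (Fin n)) (ω : Fin M → Clause k n) : 0 < W T ω :=
  Finset.prod_pos fun _ _ => lt_of_lt_of_le one_pos (one_le_wt T _)

lemma W_empty (ω : Fin M → Clause k n) : W ∅ ω = 1 := by simp [W, wt]

lemma prod_update' {ι C : Type*} [Fintype ι] [DecidableEq ι] (a : ι → C → ℝ) (ω : ι → C) (j : ι)
    (c : C) : ∏ i, a i (Function.update ω j c i) = a j c * ∏ i ∈ Finset.univ.erase j, a i (ω i) := by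
  rw [← Finset.mul_prod_erase _ _ (Finset.mem_univ j), Function.update_self]
  congr 1
  exact Finset.prod_congr rfl fun i hi => by rw [Function.update_of_ne (Finset.ne_of_mem_erase hi)]

lemma W_update_le (T : Finset (Fin n)) (ω : Fin M → Clause k n) (j : Fin M) (c : Clause k n) :
    W T (Function.update ω j c) ≤ 2 ^ k * W T ω := by
  unfold W
  rw [prod_update' (fun _ => wt T), ← Finset.mul_prod_erase _ _ (Finset.mem_univ j)]
  have h1 : 0 ≤ ∏ i ∈ Finset.univ.erase j, wt T (ω i) :=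
    Finset.prod_nonneg fun i _ => le_trans zero_le_one (one_le_wt T _)
  have h2 := wt_le T c
  have h3 := one_le_wt T (ω j)
  have h4 : (0 : ℝ) < 2 ^ k := by positivity
  nlinarith [mul_nonneg h4.le (mul_nonneg (sub_nonneg.2 h3) h1)]

/-- the solution set before time `m` does not depend on the clause at a position `≥ m` -/
lemma Sol_update_ge (D : Mdl n M) (ω : Fin M → Clause k n) (j : Fin M) (c : Clause k n) {m : ℕ}
    (h : m ≤ j.val) : Sol D (Function.update ω j c) m = Sol D ω m := by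
  ext σ
  refine and_congr Iff.rfl (forall_congr' fun i => forall_congr' fun hi => ?_)
  rw [Function.update_of_ne (by intro e; subst e; omega)]

lemma touch_univ (hk : 0 < k) (c : Clause k n) : touch c Finset.univ := ⟨⟨0, hk⟩, Finset.mem_univ _⟩

lemma Sol_kill_update (hk : 0 < k) (D : Mdl n M) (ω : Fin M → Clause k n) (j : Fin M)
    (c : Clause k n) (m : ℕ) : Sol (kill D j) (Function.update ω j c) m = Sol (kill D j) ω m := by
  ext σ
  refine and_congr Iff.rfl (forall_congr' fun i => forall_congr' fun hi => ?_)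
  by_cases e : i = j
  · subst e; simp [kill, touch_univ hk]
  · rw [Function.update_of_ne e]

lemma Sol_sub_kill (hk : 0 < k) (D : Mdl n M) (ω : Fin M → Clause k n) (j : Fin M) (m : ℕ) :
    Sol D ω m ⊆ Sol (kill D j) ω m := by
  intro σ hσ
  refine ⟨hσ.1, fun i hi => ?_⟩
  by_cases e : i = j
  · subst e; simp [kill, touch_univ hk]
  · simpa [kill, Function.update_of_ne e] using hσ.2 i hi

lemma Sol_of_kill (D : Mdl n M) (ω : Fin M → Clause k n) (j : Fin M) (m : ℕ) {σ : Fin n → Bool}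
    (h : σ ∈ Sol (kill D j) ω m) (h2 : ClauseSat σ (ω j)) : σ ∈ Sol D ω m := by
  refine ⟨h.1, fun i hi => ?_⟩
  by_cases e : i = j
  · subst e; exact fun _ => h2
  · simpa [kill, Function.update_of_ne e] using h.2 i hi

lemma Sol_kill_of_touch (hk : 0 < k) (D : Mdl n M) (ω : Fin M → Clause k n) (j : Fin M) (m : ℕ)
    (h : touch (ω j) (D.B j)) : Sol D ω m = Sol (kill D j) ω m := by
  refine Set.Subset.antisymm (Sol_sub_kill hk D ω j m) fun σ hσ => ⟨hσ.1, fun i hi => ?_⟩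
  by_cases e : i = j
  · subst e; exact fun hh => absurd h hh
  · simpa [kill, Function.update_of_ne e] using hσ.2 i hi

/-- the loss caused by the clause at one position -/
lemma Y_kill_sub {ρ : ℝ} (hρ : 1 ≤ ρ) (hk : 0 < k) (D : Mdl n M) (ω : Fin M → Clause k n)
    (j : Fin M) : (Y ρ (kill D j) ω - Y ρ D ω) ^ 2
      ≤ 2 * Q ρ (kill D j) ω (fun m => ind (kills (ω j) (Sol (kill D j) ω m))) := by
  refine le_trans ?_ (Q_sq hρ (kill D j) ω (fun m => kills (ω j) (Sol (kill D j) ω m))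
    (fun s t h => kills_mono (Sol_anti _ ω h))).2
  unfold Y
  rw [← Finset.sum_sub_distrib]
  have h1 : ∀ t, al D ω t ≤ al (kill D j) ω t := fun t =>
    ind_mono fun h => h.mono (Sol_sub_kill hk D ω j t)
  refine pow_le_pow_left₀ (Finset.sum_nonneg fun t _ => ?_) (Finset.sum_le_sum fun t _ => ?_) 2
  · rw [← mul_sub]; have := sub_nonneg.2 (h1 t); positivity
  · rw [← mul_sub]
    refine mul_le_mul_of_nonneg_left ?_ (by positivity)
    by_cases h : kills (ω j) (Sol (kill D j) ω t)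
    · rw [ind_pos h]; linarith [al_nonneg D ω t]
    · rw [ind_neg h]
      simp only [kills, not_forall, not_not] at h
      obtain ⟨σ, hσ, hs⟩ := h
      have : al D ω t = 1 := ind_pos ⟨σ, Sol_of_kill D ω j t hσ hs⟩
      linarith [al_le_one (kill D j) ω t]

end Crest.Agent.R153A
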