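import Crest.Agent.R153A.Model

/-!
The weighted exponential moment of a modified process is comparable to that of the base process.
-/

set_option autoImplicit false
open Finset BigOperators Crest.ProbabilityR.RandomSAT

namespace Crest.Agent.R153A

variable {k n M : ℕ}

lemma G_mono {ρ : ℝ} (hρ : 1 ≤ ρ) {D D' : Mdl n M} {ω ω' : Fin M → Clause k n}
    (h : ∀ t, (Sol D ω t).Nonempty → (Sol D' ω' t).Nonempty) : G ρ D ω ≤ G ρ D' ω' :=
  pow_le_pow_right₀ hρ (Nat.mul_le_mul_left 2 (Hn_mono h))

lemma G_kill_le (hk : 0 < k) (h : k ≤ n) {ρ : ℝ} (hρ : 1 ≤ ρ) (D : Mdl n M)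
    (ω : Fin M → Clause k n) (j : Fin M) :
    G ρ (kill D j) ω ≤ 2 * 𝔼 c, G ρ D (Function.update ω j c) := by
  have := nonempty_clause h
  by_cases h0 : Hn (kill D j) ω = 0
  · have h1 : (1 : ℝ) ≤ 𝔼 c, G ρ D (Function.update ω j c) :=
      Finset.le_expect Finset.univ_nonempty fun c _ => one_le_pow₀ hρ
    rw [G, h0]
    norm_num
    linarith
  · have hM := Hn_le (kill D j) ω
    obtain ⟨σ, hσ⟩ := (lt_Hn (kill D j) ω (t := Hn (kill D j) ω - 1) (by omega)).2 (by omega)
    have h1 : ∀ c, ind (ClauseSat σ c) * G ρ (kill D j) ω ≤ G ρ D (Function.update ω j c) := by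
      intro c
      by_cases hc : ClauseSat σ c
      · rw [ind_pos hc, one_mul]
        refine pow_le_pow_right₀ hρ (Nat.mul_le_mul_left 2 ?_)
        have h2 : σ ∈ Sol D (Function.update ω j c) (Hn (kill D j) ω - 1) := by
          refine Sol_of_kill D _ j _ ?_ (by rwa [Function.update_self])
          rwa [Sol_kill_update hk]
        have := (lt_Hn D (Function.update ω j c) (t := Hn (kill D j) ω - 1) (by omega)).1 ⟨σ, h2⟩
        omega
      · rw [ind_neg hc, zero_mul]; exact (G_pos hρ _ _).le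
    have h2 := Finset.expect_le_expect (s := Finset.univ) fun c _ => h1 c
    rw [← Finset.expect_mul, prob_sat h] at h2
    have h3 : (1 : ℝ) / 2 ^ k ≤ 1 / 2 := by
      refine one_div_le_one_div_of_le (by norm_num) ?_
      exact le_self_pow₀ (by norm_num) hk.ne'
    have := G_pos hρ (kill D j) ω
    nlinarith

def hyb (D : Mdl n M) (j : ℕ) : Mdl n M :=
  ⟨∅, fun _ => true, fun i => if i.val < j then ∅ else D.B i⟩

noncomputable def zz (k : ℕ) (ρ : ℝ) (D : Mdl n M) (j : ℕ) : ℝ :=
  𝔼 ω : Fin M → Clause k n,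
    (∏ i : Fin M, if i.val < j then 1 else wt D.T (ω i)) * G ρ (hyb D j) ω

lemma zz_nonneg {ρ : ℝ} (hρ : 1 ≤ ρ) (D : Mdl n M) (j : ℕ) : 0 ≤ zz k ρ D j :=
  Finset.expect_nonneg fun ω _ => mul_nonneg (Finset.prod_nonneg fun i _ => by
    split_ifs
    · norm_num
    · exact le_trans zero_le_one (one_le_wt _ _)) (G_pos hρ _ _).le

lemma zz_step (hk : 0 < k) (h : k ≤ n) {ρ : ℝ} (hρ : 1 ≤ ρ) (D : Mdl n M) (j : Fin M) :
    zz k ρ D j.val ≤ (1 + 2 ^ (k + 1) * (k : ℝ) ^ (k + 1) * (D.T.card / n))
      * (if j ∈ dead D then 2 ^ (k + 1) else 1) * zz k ρ D (j.val + 1) := by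
  have := nonempty_clause h
  have hn : 0 < n := by omega
  unfold zz
  rw [expect_update j, expect_update j (fun ω => _ * G ρ (hyb D (j.val + 1)) ω), Finset.mul_expect]
  refine Finset.expect_le_expect fun ω _ => ?_
  simp only [prod_update' (fun (i : Fin M) (c : Clause k n) =>
      if i.val < j.val then 1 else wt D.T c),
    prod_update' (fun (i : Fin M) (c : Clause k n) => if i.val < j.val + 1 then 1 else wt D.T c),
    lt_irrefl, if_false, Nat.lt_succ_self, if_true, one_mul]
  have eR : (∏ i ∈ Finset.univ.erase j, if i.val < j.val + 1 then 1 else wt D.T (ω i))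
      = ∏ i ∈ Finset.univ.erase j, if i.val < j.val then 1 else wt D.T (ω i) := by
    refine Finset.prod_congr rfl fun i hi => ?_
    have : i.val ≠ j.val := fun e => Finset.ne_of_mem_erase hi (Fin.ext e)
    have : (i.val < j.val + 1) ↔ i.val < j.val := by omega
    simp only [this]
  rw [eR]
  set R := ∏ i ∈ Finset.univ.erase j, if i.val < j.val then 1 else wt D.T (ω i)
  have hR : 0 ≤ R := Finset.prod_nonneg fun i _ => by
    split_ifs
    · norm_num
    · exact le_trans zero_le_one (one_le_wt _ _)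
  have ek : kill (hyb D j.val) j = kill (hyb D (j.val + 1)) j := by
    unfold kill hyb
    congr 1
    funext i
    by_cases e : i = j
    · subst e; simp
    · have : i.val ≠ j.val := fun e' => e (Fin.ext e')
      have : (i.val < j.val + 1) ↔ i.val < j.val := by omega
      simp only [Function.update_of_ne e, this]
  set f0 := G ρ (kill (hyb D (j.val + 1)) j) ω
  have ha : f0 ≤ 2 * 𝔼 c, G ρ (hyb D (j.val + 1)) (Function.update ω j c) :=
    G_kill_le hk h hρ _ ω j
  have hb : ∀ c, G ρ (hyb D j.val) (Function.update ω j c) ≤ f0 := fun c =>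
    G_mono hρ fun t ht => by
      rw [← ek, ← Sol_kill_update hk _ ω j c]
      exact ht.mono (Sol_sub_kill hk _ _ j t)
  have hf0 : 0 ≤ f0 := (G_pos hρ _ _).le
  rw [← Finset.mul_expect]
  set E := 𝔼 c, G ρ (hyb D (j.val + 1)) (Function.update ω j c) with hE
  have hE0 : 0 ≤ E := by linarith
  have e2 : ∀ c, wt D.T c * R * G ρ (hyb D j.val) (Function.update ω j c)
      = R * (wt D.T c * G ρ (hyb D j.val) (Function.update ω j c)) := fun c => by ring
  simp only [e2]
  rw [← Finset.mul_expect, mul_left_comm]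
  refine mul_le_mul_of_nonneg_left ?_ hR
  set x : ℝ := 2 ^ (k + 1) * (k : ℝ) ^ (k + 1) * (D.T.card / n) with hx
  have hx0 : 0 ≤ x := by positivity
  clear_value E f0
  by_cases hj : j ∈ dead D
  · rw [if_pos hj]
    have h1 : 𝔼 c, wt D.T c * G ρ (hyb D j.val) (Function.update ω j c) ≤ 2 ^ k * f0 :=
      Finset.expect_le Finset.univ_nonempty fun c _ =>
        mul_le_mul (wt_le _ _) (hb c) (G_pos hρ _ _).le (by positivity)
    calc _ ≤ 2 ^ k * f0 := h1
      _ ≤ 2 ^ k * (2 * E) := by gcongr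
      _ = 1 * 2 ^ (k + 1) * E := by ring
      _ ≤ _ := by gcongr; linarith
  · rw [if_neg hj, mul_one]
    have hB : D.B j ⊆ D.T := by simpa [dead] using hj
    have h1 : ∀ c, wt D.T c * G ρ (hyb D j.val) (Function.update ω j c)
        ≤ G ρ (hyb D (j.val + 1)) (Function.update ω j c) + ind (touch c D.T) * (2 ^ k * f0) := by
      intro c
      by_cases hc : touch c D.T
      · rw [ind_pos hc, one_mul]
        have := mul_le_mul (wt_le D.T c) (hb c) (G_pos hρ _ _).le (by positivity)
        linarith [G_pos hρ (hyb D (j.val + 1)) (Function.update ω j c)]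
      · rw [ind_neg hc, zero_mul, add_zero, wt_of_not_touch hc, one_mul]
        refine G_mono hρ fun t ⟨σ, hσ⟩ => ⟨σ, hσ.1, fun i hi hi2 => hσ.2 i hi ?_⟩
        by_cases e : i = j
        · subst e
          simp only [hyb, lt_irrefl, if_false, Function.update_self]
          exact fun ⟨l, hl⟩ => hc ⟨l, hB hl⟩
        · have : i.val ≠ j.val := fun e' => e (Fin.ext e')
          have : (i.val < j.val + 1) ↔ i.val < j.val := by omega
          simpa only [hyb, this] using hi2
    refine (Finset.expect_le_expect fun c _ => h1 c).trans ?_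
    rw [Finset.expect_add_distrib, ← Finset.expect_mul, ← hE]
    have h2 : 𝔼 c : Clause k n, ind (touch c D.T) ≤ (k : ℝ) ^ (k + 1) * ((D.T.card : ℝ) / n) :=
      prob_touch h hn D.T
    calc _ ≤ E + (k : ℝ) ^ (k + 1) * ((D.T.card : ℝ) / n) * (2 ^ k * (2 * E)) := by gcongr
      _ = _ := by rw [hx]; ring

lemma Z_le (hk : 0 < k) (h : k ≤ n) {ρ : ℝ} (hρ : 1 ≤ ρ) (D : Mdl n M) {C0 : ℝ}
    (hM : (M : ℝ) ≤ C0 * n) {d : ℕ} (hT : D.T.card ≤ d) (hd : (dead D).card ≤ d) :
    𝔼 ω : Fin M → Clause k n, W D.T ω * G ρ D ω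
      ≤ (Real.exp (2 ^ (k + 1) * (k : ℝ) ^ (k + 1) * C0) * 2 ^ (k + 1)) ^ d
        * 𝔼 ω : Fin M → Clause k n, G ρ (base n M) ω := by
  have hn : (0 : ℝ) < n := by exact_mod_cast (show 0 < n by omega)
  set x : ℝ := 2 ^ (k + 1) * (k : ℝ) ^ (k + 1) * (D.T.card / n) with hx
  have hx0 : 0 ≤ x := by positivity
  have h1 : ∀ j, j ≤ M → zz k ρ D 0
      ≤ (1 + x) ^ j * (2 ^ (k + 1)) ^ ((dead D).filter fun i => i.val < j).card * zz k ρ D j := by
    intro j
    induction j with
    | zero => simp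
    | succ j ih =>
      intro hj
      have hj' : j < M := hj
      refine (ih hj'.le).trans ?_
      have h2 := zz_step hk h hρ D ⟨j, hj'⟩
      have h3 := zz_nonneg (k := k) hρ D (j + 1)
      have hsub : ((dead D).filter fun i => i.val < j) ⊆ (dead D).filter fun i => i.val < j + 1 := by
        intro i hi
        rw [Finset.mem_filter] at hi ⊢
        exact ⟨hi.1, by omega⟩
      have h4 : ((2 : ℝ) ^ (k + 1)) ^ ((dead D).filter fun i => i.val < j).card
          * (if (⟨j, hj'⟩ : Fin M) ∈ dead D then 2 ^ (k + 1) else 1)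
          ≤ (2 ^ (k + 1)) ^ ((dead D).filter fun i => i.val < j + 1).card := by
        split_ifs with hh
        · rw [← pow_succ]
          refine pow_le_pow_right₀ (one_le_pow₀ (by norm_num))
            (Finset.card_lt_card ⟨hsub, fun h5 => ?_⟩)
          have : (⟨j, hj'⟩ : Fin M) ∈ (dead D).filter fun i => i.val < j + 1 := by
            simp [hh]
          have := h5 this
          simp at this
        · rw [mul_one]
          exact pow_le_pow_right₀ (one_le_pow₀ (by norm_num)) (Finset.card_le_card hsub)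
      calc _ ≤ (1 + x) ^ j * (2 ^ (k + 1)) ^ ((dead D).filter fun i => i.val < j).card
            * ((1 + x) * (if (⟨j, hj'⟩ : Fin M) ∈ dead D then 2 ^ (k + 1) else 1)
              * zz k ρ D (j + 1)) := by gcongr
        _ = (1 + x) ^ (j + 1) * ((2 ^ (k + 1)) ^ ((dead D).filter fun i => i.val < j).card
            * (if (⟨j, hj'⟩ : Fin M) ∈ dead D then 2 ^ (k + 1) else 1)) * zz k ρ D (j + 1) := by
          ring
        _ ≤ _ := by gcongr
  have h2 : 𝔼 ω : Fin M → Clause k n, W D.T ω * G ρ D ω ≤ zz k ρ D 0 := by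
    refine Finset.expect_le_expect fun ω _ => ?_
    simp only [Nat.not_lt_zero, if_false]
    refine mul_le_mul_of_nonneg_left (G_mono hρ fun t ⟨σ, hσ⟩ => ⟨σ, by simp [hyb], ?_⟩)
      (W_pos _ _).le
    simpa [hyb] using hσ.2
  have h3 : zz k ρ D M = 𝔼 ω : Fin M → Clause k n, G ρ (base n M) ω := by
    have : hyb D M = base n M := by
      unfold hyb base
      congr 1
      funext i
      simp
    simp [zz, this]
  refine h2.trans ((h1 M le_rfl).trans ?_)
  rw [h3]
  refine mul_le_mul_of_nonneg_right ?_ (Finset.expect_nonneg fun ω _ => (G_pos hρ _ _).le)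
  rw [mul_pow]
  refine mul_le_mul ?_ (pow_le_pow_right₀ (one_le_pow₀ (by norm_num))
    ((Finset.card_filter_le _ _).trans hd)) (by positivity) (by positivity)
  calc (1 + x) ^ M ≤ Real.exp x ^ M := by
        gcongr; linarith [Real.add_one_le_exp x]
    _ ≤ _ := by
        rw [← Real.exp_nat_mul, ← Real.exp_nat_mul]
        refine Real.exp_le_exp.2 ?_
        have h4 : (D.T.card : ℝ) ≤ d := by exact_mod_cast hT
        have h5 : (M : ℝ) / n ≤ C0 := by rwa [div_le_iff₀ hn]
        have h6 : (0 : ℝ) ≤ M / n := by positivity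
        calc (M : ℝ) * x = D.T.card * (2 ^ (k + 1) * (k : ℝ) ^ (k + 1) * (M / n)) := by
              rw [hx]; ring
          _ ≤ _ := by gcongr

end Crest.Agent.R153A
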