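import Crest.Agent.R153A.Hazard
import Crest.Agent.R153A.Zb

/-!
The bootstrap: the loss caused by a random unit clause is bounded, by downward induction on the
number of forced variables.
-/

set_option autoImplicit false
open Finset BigOperators Crest.ProbabilityR.RandomSAT

namespace Crest.Agent.R153A

variable {k n M : ℕ}

def force (D : Mdl n M) (v : Fin n) (s : Bool) (t : ℕ) : Mdl n M :=
  ⟨insert v D.T, Function.update D.τ v s, fun i => if t ≤ i.val then insert v (D.B i) else D.B i⟩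

noncomputable def U (k : ℕ) (ρ : ℝ) (D : Mdl n M) : ℝ :=
  𝔼 ω : Fin M → Clause k n, W D.T ω * Q ρ D ω (beta D ω)

lemma force_sub (D : Mdl n M) (v : Fin n) (s : Bool) (ω : Fin M → Clause k n) {t t' : ℕ}
    (h : t ≤ t') (m : ℕ) : Sol (force D v s t') ω m ⊆ Sol (force D v s t) ω m := by
  intro σ hσ
  refine ⟨hσ.1, fun i hi hi2 => hσ.2 i hi fun ⟨l, hl⟩ => hi2 ⟨l, ?_⟩⟩
  simp only [force] at hl ⊢
  by_cases h1 : t' ≤ i.val
  · rw [if_pos h1] at hl; rw [if_pos (h.trans h1)]; exact hl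
  · rw [if_neg h1] at hl
    split_ifs
    · exact Finset.mem_insert_of_mem hl
    · exact hl

lemma unit_loss {ρ : ℝ} (hρ : 1 ≤ ρ) (D : Mdl n M) {v : Fin n} (hv : v ∉ D.T) (s : Bool)
    (ω : Fin M → Clause k n) :
    Q ρ D ω (fun m => ind (∀ σ ∈ Sol D ω m, σ v ≠ s))
      ≤ (∑ j : Fin M, (Y ρ (force D v s j.val) ω - Y ρ (force D v s (j.val + 1)) ω)) ^ 2 := by
  refine (Q_sq hρ D ω (fun m => ∀ σ ∈ Sol D ω m, σ v ≠ s)
    (fun a b h hh σ hσ => hh σ (Sol_anti D ω h hσ))).1.trans ?_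
  rw [Fin.sum_univ_eq_sum_range (fun j => Y ρ (force D v s j) ω - Y ρ (force D v s (j + 1)) ω),
    Finset.sum_range_sub' (fun j => Y ρ (force D v s j) ω)]
  refine pow_le_pow_left₀ (Finset.sum_nonneg fun t _ => ?_) ?_ 2
  · have := al_nonneg D ω t
    have := ind_nonneg (∀ σ ∈ Sol D ω t, σ v ≠ s)
    positivity
  unfold Y
  rw [← Finset.sum_sub_distrib]
  refine Finset.sum_le_sum fun t _ => ?_
  rw [← mul_sub]
  refine mul_le_mul_of_nonneg_left ?_ (by positivity)
  have h0 : al (force D v s M) ω t ≤ al (force D v s 0) ω t :=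
    ind_mono fun h => h.mono (force_sub D v s ω (Nat.zero_le _) t)
  by_cases h1 : (Sol D ω t).Nonempty
  swap
  · rw [al, ind_neg h1]; linarith
  by_cases h2 : ∀ σ ∈ Sol D ω t, σ v ≠ s
  swap
  · rw [ind_neg h2]; linarith
  have e1 : al (force D v s 0) ω t = 1 := by
    obtain ⟨σ, hσ⟩ := h1
    refine ind_pos ⟨Function.update σ v s, fun w hw => ?_, fun i hi hi2 => ?_⟩
    · by_cases e : w = v
      · subst e; simp [force]
      · simp only [force, Function.update_of_ne e]
        exact hσ.1 w (by simpa [force, e] using hw)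
    · simp only [force, Nat.zero_le, if_true] at hi2
      obtain ⟨l, hl⟩ := hσ.2 i hi fun ⟨l, hl⟩ => hi2 ⟨l, Finset.mem_insert_of_mem hl⟩
      refine ⟨l, ?_⟩
      rw [Function.update_of_ne, hl]
      intro e
      exact hi2 ⟨l, e ▸ Finset.mem_insert_self _ _⟩
  have e2 : al (force D v s M) ω t = 0 := by
    refine ind_neg fun ⟨σ, hσ⟩ => h2 σ ⟨fun w hw => ?_, fun i hi hi2 => hσ.2 i hi ?_⟩ ?_
    · have e : w ≠ v := fun e => hv (e ▸ hw)
      simpa [force, Function.update_of_ne e] using hσ.1 w (Finset.mem_insert_of_mem hw)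
    · simpa [force, not_le.2 i.2] using hi2
    · simpa [force] using hσ.1 v (Finset.mem_insert_self _ _)
  rw [e1, e2, ind_pos h2]
  linarith [al_le_one D ω t]

lemma kill_force (D : Mdl n M) (v : Fin n) (s : Bool) (j : Fin M) :
    kill (force D v s j.val) j = kill (force D v s (j.val + 1)) j := by
  unfold kill force
  congr 1
  funext i
  by_cases e : i = j
  · subst e; simp
  · have : i.val ≠ j.val := fun e' => e (Fin.ext e')
    have : (j.val + 1 ≤ i.val) ↔ j.val ≤ i.val := by omega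
    simp only [Function.update_of_ne e, this]

lemma Dt_zero (ρ : ℝ) (D : Mdl n M) (v : Fin n) (s : Bool) (ω : Fin M → Clause k n) (j : Fin M)
    (h : ¬ ∃ l, (ω j).1.1 l = v) :
    Y ρ (force D v s j.val) ω - Y ρ (force D v s (j.val + 1)) ω = 0 := by
  have : ∀ m, Sol (force D v s j.val) ω m = Sol (force D v s (j.val + 1)) ω m := by
    intro m
    refine Set.Subset.antisymm (fun σ hσ => ⟨hσ.1, fun i hi hi2 => hσ.2 i hi ?_⟩)
      (force_sub D v s ω (Nat.le_succ _) m)
    by_cases e : i = j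
    · subst e
      simp only [force, le_refl, if_true, Nat.not_succ_le_self, if_false] at hi2 ⊢
      rintro ⟨l, hl⟩
      rcases Finset.mem_insert.1 hl with h1 | h1
      · exact h ⟨l, h1⟩
      · exact hi2 ⟨l, h1⟩
    · have : i.val ≠ j.val := fun e' => e (Fin.ext e')
      have : (j.val + 1 ≤ i.val) ↔ j.val ≤ i.val := by omega
      simpa only [force, this] using hi2
  simp only [Y, al, this, sub_self]

lemma Dt_sq {ρ : ℝ} (hρ : 1 ≤ ρ) (hk : 0 < k) (D : Mdl n M) (v : Fin n) (s : Bool)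
    (ω : Fin M → Clause k n) (j : Fin M) :
    (Y ρ (force D v s j.val) ω - Y ρ (force D v s (j.val + 1)) ω) ^ 2
      ≤ 2 * (ind (∃ l, (ω j).1.1 l = v) * Q ρ (kill (force D v s (j.val + 1)) j) ω
        (fun m => ind (kills (ω j) (Sol (kill (force D v s (j.val + 1)) j) ω m)))) := by
  by_cases h : ∃ l, (ω j).1.1 l = v
  · rw [ind_pos h, one_mul]
    refine le_trans (le_of_eq ?_) (Y_kill_sub hρ hk _ ω j)
    have : ∀ m, Sol (force D v s j.val) ω m = Sol (kill (force D v s (j.val + 1)) j) ω m := by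
      intro m
      rw [← kill_force]
      refine Sol_kill_of_touch hk _ ω j m ?_
      obtain ⟨l, hl⟩ := h
      exact ⟨l, by simp [force, hl]⟩
    simp only [Y, al, this]
  · rw [Dt_zero ρ D v s ω j h, ind_neg h]; simp

lemma Q_kill_update (hk : 0 < k) (ρ : ℝ) (D : Mdl n M) (ω : Fin M → Clause k n) (j : Fin M)
    (c : Clause k n) (φ : ℕ → ℝ) :
    Q ρ (kill D j) (Function.update ω j c) φ = Q ρ (kill D j) ω φ := by
  simp only [Q, al, Sol_kill_update hk]

lemma E_var {ρ : ℝ} (hρ : 1 ≤ ρ) (hk : 3 ≤ k) (h : k ≤ n) (D : Mdl n M) (v : Fin n) (j : Fin M) :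
    𝔼 ω : Fin M → Clause k n, W D.T ω * (ind (∃ l, (ω j).1.1 l = v) * Q ρ (kill D j) ω
        (fun m => ind (kills (ω j) (Sol (kill D j) ω m))))
      ≤ 2 ^ k * ((k : ℝ) ^ (k + 1) / n) * 𝔼 ω : Fin M → Clause k n, W D.T ω * Q ρ (kill D j) ω
        (fun m => (beta (kill D j) ω m + (D.T.card : ℝ) / n) ^ 2) := by
  have := nonempty_clause h
  have hk0 : 0 < k := by omega
  rw [expect_update j, Finset.mul_expect]
  refine Finset.expect_le_expect fun ω _ => ?_
  simp only [Q_kill_update hk0, Sol_kill_update hk0, Function.update_self]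
  have h1 : ∀ c : Clause k n, W D.T (Function.update ω j c) * (ind (∃ l, c.1.1 l = v) *
        Q ρ (kill D j) ω (fun m => ind (kills c (Sol (kill D j) ω m))))
      ≤ 2 ^ k * W D.T ω * Q ρ (kill D j) ω
        (fun m => ind ((∃ l, c.1.1 l = v) ∧ ∀ l, c.1.1 l ∈ Fr (Sol (kill D j) ω m))) := by
    intro c
    refine mul_le_mul (W_update_le _ _ _ _) ?_
      (mul_nonneg (ind_nonneg _) (Q_nonneg hρ _ _ fun m => ind_nonneg _))
      (by have := W_pos D.T ω; positivity)
    rw [← Q_mul]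
    refine Q_mono hρ _ _ fun m => ?_
    rw [← ind_and]
    exact ind_mono fun hh => ⟨hh.1, kills_Fr hh.2⟩
  refine (Finset.expect_le_expect fun c _ => h1 c).trans ?_
  rw [← Finset.mul_expect, Q_expect]
  have h2 := Q_mono hρ (kill D j) ω (φ := fun m => 𝔼 c : Clause k n,
      ind ((∃ l, c.1.1 l = v) ∧ ∀ l, c.1.1 l ∈ Fr (Sol (kill D j) ω m)))
    (ψ := fun m => (k : ℝ) ^ (k + 1) / n * (beta (kill D j) ω m + (D.T.card : ℝ) / n) ^ 2)
    fun m => (prob_var hk h v _).trans (by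
      have := Fr_card_le (kill D j) ω m
      gcongr
      exact this)
  rw [Q_mul] at h2
  have h3 := W_pos D.T ω
  calc _ ≤ 2 ^ k * W D.T ω * ((k : ℝ) ^ (k + 1) / n * Q ρ (kill D j) ω
        (fun m => (beta (kill D j) ω m + (D.T.card : ℝ) / n) ^ 2)) := by gcongr
    _ = _ := by ring

lemma one_add_sum_le {α : Type*} (s : Finset α) (x : α → ℝ) (hx : ∀ a, 0 ≤ x a) :
    1 + ∑ a ∈ s, x a ≤ ∏ a ∈ s, (1 + x a) := by
  classical
  induction s using Finset.induction_on with
  | empty => simp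
  | insert a s ha ih =>
    rw [Finset.sum_insert ha, Finset.prod_insert ha]
    have := Finset.sum_nonneg (s := s) fun a _ => hx a
    nlinarith [hx a, mul_nonneg (hx a) this]

lemma W_insert {T : Finset (Fin n)} {v : Fin n} (hv : v ∉ T) (ω : Fin M → Clause k n) :
    W T ω * ∑ j, ind (∃ l, (ω j).1.1 l = v) ≤ W (insert v T) ω := by
  have h1 := one_add_sum_le Finset.univ (fun j => ind (∃ l, (ω j).1.1 l = v))
    fun _ => ind_nonneg _
  have h2 := W_pos T ω
  calc _ ≤ W T ω * ∏ j, (1 + ind (∃ l, (ω j).1.1 l = v)) := by gcongr; linarith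
    _ ≤ _ := by
      unfold W
      rw [← Finset.prod_mul_distrib]
      refine Finset.prod_le_prod (fun j _ => mul_nonneg (le_trans zero_le_one (one_le_wt _ _))
        (by linarith [ind_nonneg (∃ l, (ω j).1.1 l = v)])) fun j _ => ?_
      have hsub : (Finset.univ.filter fun l => (ω j).1.1 l ∈ T)
          ⊆ Finset.univ.filter fun l => (ω j).1.1 l ∈ insert v T := by
        intro l hl
        simp only [Finset.mem_filter, Finset.mem_univ, true_and] at hl ⊢
        exact Finset.mem_insert_of_mem hl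
      unfold wt
      by_cases h : ∃ l, (ω j).1.1 l = v
      · rw [ind_pos h, one_add_one_eq_two, ← pow_succ]
        refine pow_le_pow_right₀ (by norm_num) (Finset.card_lt_card ⟨hsub, fun h5 => ?_⟩)
        obtain ⟨l, hl⟩ := h
        have : l ∈ Finset.univ.filter fun l => (ω j).1.1 l ∈ insert v T := by simp [hl]
        have := h5 this
        simp [hl, hv] at this
      · rw [ind_neg h, add_zero, mul_one]
        exact pow_le_pow_right₀ (by norm_num) (Finset.card_le_card hsub)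

lemma unit_le {ρ : ℝ} (hρ : 1 ≤ ρ) (hk : 3 ≤ k) (h : k ≤ n) (D : Mdl n M) {v : Fin n}
    (hv : v ∉ D.T) (s : Bool) :
    𝔼 ω : Fin M → Clause k n, W D.T ω * Q ρ D ω (fun m => ind (∀ σ ∈ Sol D ω m, σ v ≠ s))
      ≤ ∑ j : Fin M, 2 * (2 ^ k * ((k : ℝ) ^ (k + 1) / n) * 𝔼 ω : Fin M → Clause k n,
        W (insert v D.T) ω * Q ρ (kill (force D v s (j.val + 1)) j) ω
        (fun m => (beta (kill (force D v s (j.val + 1)) j) ω m
          + ((insert v D.T).card : ℝ) / n) ^ 2)) := by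
  have hk0 : 0 < k := by omega
  have h1 : ∀ ω : Fin M → Clause k n,
      W D.T ω * Q ρ D ω (fun m => ind (∀ σ ∈ Sol D ω m, σ v ≠ s))
      ≤ ∑ j : Fin M, 2 * (W (insert v D.T) ω * (ind (∃ l, (ω j).1.1 l = v) *
        Q ρ (kill (force D v s (j.val + 1)) j) ω
        (fun m => ind (kills (ω j) (Sol (kill (force D v s (j.val + 1)) j) ω m))))) := by
    intro ω
    set d : Fin M → ℝ := fun j => Y ρ (force D v s j.val) ω - Y ρ (force D v s (j.val + 1)) ω
      with hd
    have e : ∑ j, d j = ∑ j, ind (∃ l, (ω j).1.1 l = v) * d j := by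
      refine Finset.sum_congr rfl fun j _ => ?_
      by_cases hh : ∃ l, (ω j).1.1 l = v
      · rw [ind_pos hh, one_mul]
      · simp only [hd, Dt_zero ρ D v s ω j hh, mul_zero]
    have h2 : (∑ j, d j) ^ 2 ≤ (∑ j, ind (∃ l, (ω j).1.1 l = v)) * ∑ j, d j ^ 2 := by
      rw [e]
      refine (Finset.sum_mul_sq_le_sq_mul_sq _ _ _).trans (le_of_eq ?_)
      congr 1
      refine Finset.sum_congr rfl fun j _ => ?_
      rw [sq, ← ind_and, and_self]
    have h3 := W_pos D.T ω
    have h4 : 0 ≤ ∑ j, d j ^ 2 := Finset.sum_nonneg fun j _ => sq_nonneg _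
    calc _ ≤ W D.T ω * ((∑ j, ind (∃ l, (ω j).1.1 l = v)) * ∑ j, d j ^ 2) :=
          mul_le_mul_of_nonneg_left ((unit_loss hρ D hv s ω).trans h2) h3.le
      _ ≤ W (insert v D.T) ω * ∑ j, d j ^ 2 := by
          rw [← mul_assoc]
          exact mul_le_mul_of_nonneg_right (W_insert hv ω) h4
      _ ≤ _ := by
          rw [Finset.mul_sum]
          refine Finset.sum_le_sum fun j _ => ?_
          rw [mul_left_comm]
          exact mul_le_mul_of_nonneg_left (Dt_sq hρ hk0 D v s ω j) (W_pos _ _).le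
  refine (Finset.expect_le_expect fun ω _ => h1 ω).trans ?_
  rw [Finset.expect_sum_comm]
  refine Finset.sum_le_sum fun j _ => ?_
  rw [← Finset.mul_expect]
  exact mul_le_mul_of_nonneg_left (E_var hρ hk h (force D v s (j.val + 1)) v j) (by norm_num)

lemma U_le_units {ρ : ℝ} (hρ : 1 ≤ ρ) (D : Mdl n M) :
    U k ρ D ≤ 1 / n * ∑ v ∈ D.Tᶜ, ∑ s : Bool, 𝔼 ω : Fin M → Clause k n,
      W D.T ω * Q ρ D ω (fun m => ind (∀ σ ∈ Sol D ω m, σ v ≠ s)) := by
  unfold U
  simp only [← Finset.expect_sum_comm, ← Finset.mul_sum, ← Q_sum]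
  rw [Finset.mul_expect]
  refine Finset.expect_le_expect fun ω _ => ?_
  rw [mul_left_comm, ← Q_mul ρ D ω (1 / n)]
  refine mul_le_mul_of_nonneg_left (Q_mono hρ _ _ fun m => ?_) (W_pos _ _).le
  unfold beta
  rw [one_div, ← div_eq_inv_mul]
  gcongr
  rw [Finset.card_eq_sum_ones, Nat.cast_sum]
  refine le_trans (Finset.sum_le_sum fun v hv => ?_) (Finset.sum_le_sum_of_subset_of_nonneg
    (s := Fr (Sol D ω m) \ D.T) (fun v hv => ?_) fun v _ _ => Finset.sum_nonneg fun _ _ => ind_nonneg _)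
  · rw [Nat.cast_one, ← ind_pos (mem_Fr.1 (Finset.mem_sdiff.1 hv).1)]
    exact ind_exists_le _
  · exact Finset.mem_compl.2 (Finset.mem_sdiff.1 hv).2

lemma quad_le (h : k ≤ n) (hn : 0 < n) {δ p ρ : ℝ} (hδ : 0 < δ) (hδn : 2 * k ≤ δ * n)
    (hp0 : 0 < p) (hp1 : p ≤ 1 / 2) (hp : p * 2 ^ k ≤ (δ / 4) ^ k) (hρ : 1 ≤ ρ)
    (hρ' : ρ ≤ 1 + p / 2) (D : Mdl n M) {d : ℕ} (hT : D.T.card ≤ d) (hd : (dead D).card ≤ d)
    {C0 : ℝ} (hM : (M : ℝ) ≤ C0 * n) :
    𝔼 ω : Fin M → Clause k n, W D.T ω * Q ρ D ω (fun m => (beta D ω m + (D.T.card : ℝ) / n) ^ 2)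
      ≤ 2 * (δ * U k ρ D + 4 ^ d * (4 / p ^ 2 + C0 ^ 2)
        * 𝔼 ω : Fin M → Clause k n, W D.T ω * G ρ D ω) := by
  have hz := hazard h hn hδ hδn hp0 hp1 hp hρ hρ' D hd
  have hn' : (0 : ℝ) < n := by exact_mod_cast hn
  set ε : ℝ := (D.T.card : ℝ) / n with hε
  have h1 : ∀ ω : Fin M → Clause k n, W D.T ω * Q ρ D ω (fun m => (beta D ω m + ε) ^ 2)
      ≤ 2 * (δ * (W D.T ω * Q ρ D ω (beta D ω))
        + W D.T ω * Q ρ D ω (fun m => ind (δ < beta D ω m))
        + 4 ^ d * C0 ^ 2 * (W D.T ω * G ρ D ω)) := by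
    intro ω
    have h2 := Q_mono hρ D ω (φ := fun m => (beta D ω m + ε) ^ 2)
      (ψ := fun m => 2 * (δ * beta D ω m + ind (δ < beta D ω m) + ε ^ 2 * 1)) fun m => by
        have h3 := beta_nonneg D ω m
        have h4 := beta_le_one hn D ω m
        have h5 : beta D ω m ^ 2 ≤ δ * beta D ω m + ind (δ < beta D ω m) := by
          by_cases hh : δ < beta D ω m
          · rw [ind_pos hh]; nlinarith
          · rw [ind_neg hh]; nlinarith [not_lt.1 hh]
        nlinarith [sq_nonneg (beta D ω m - ε)]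
    rw [Q_mul, Q_add, Q_add, Q_mul, Q_mul] at h2
    have h3 := Q_one_le hρ D ω
    have h4 := W_pos D.T ω
    have h5 : ε ^ 2 * Q ρ D ω (fun _ => 1) ≤ 4 ^ d * C0 ^ 2 * G ρ D ω := by
      have h6 : (D.T.card : ℝ) ≤ 2 ^ d := by
        have : D.T.card ≤ 2 ^ d := hT.trans (Nat.lt_two_pow_self).le
        exact_mod_cast this
      have h7 : (M : ℝ) / n ≤ C0 := by rwa [div_le_iff₀ hn']
      have h8 := G_pos hρ D ω
      calc _ ≤ ε ^ 2 * ((M : ℝ) ^ 2 * G ρ D ω) := by gcongr
        _ = (D.T.card : ℝ) ^ 2 * (M / n) ^ 2 * G ρ D ω := by rw [hε]; ring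
        _ ≤ (2 ^ d) ^ 2 * C0 ^ 2 * G ρ D ω := by gcongr
        _ = _ := by rw [← pow_mul, mul_comm d 2, pow_mul]; norm_num
    have h6 := mul_le_mul_of_nonneg_left h2 h4.le
    have h7 := mul_le_mul_of_nonneg_left h5 h4.le
    have e : Q ρ D ω (fun m => beta D ω m) = Q ρ D ω (beta D ω) := rfl
    rw [e] at h6
    nlinarith
  refine (Finset.expect_le_expect fun ω _ => h1 ω).trans ?_
  rw [← Finset.mul_expect, Finset.expect_add_distrib, Finset.expect_add_distrib,
    ← Finset.mul_expect, ← Finset.mul_expect]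
  unfold U
  nlinarith

lemma dead_kill_force (D : Mdl n M) (v : Fin n) (s : Bool) (t : ℕ) (j : Fin M) :
    (dead (kill (force D v s t) j)).card ≤ (dead D).card + 1 := by
  refine le_trans (Finset.card_le_card (t := insert j (dead D)) fun i hi => ?_)
    (Finset.card_insert_le _ _)
  by_cases e : i = j
  · simp [e]
  · refine Finset.mem_insert_of_mem ?_
    have hi' := (Finset.mem_filter.1 hi).2
    refine Finset.mem_filter.2 ⟨Finset.mem_univ _, fun hh => hi' ?_⟩
    simp only [kill, force, Function.update_of_ne e]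
    split_ifs
    · exact Finset.insert_subset_insert _ hh
    · exact hh.trans (Finset.subset_insert _ _)

lemma U_bound (hk : 3 ≤ k) (h : k ≤ n) {δ p ρ C0 c A : ℝ} (hδ : 0 < δ) (hδn : 2 * k ≤ δ * n)
    (hp0 : 0 < p) (hp1 : p ≤ 1 / 2) (hp : p * 2 ^ k ≤ (δ / 4) ^ k) (hρ : 1 ≤ ρ)
    (hρ' : ρ ≤ 1 + p / 2) (hM : (M : ℝ) ≤ C0 * n)
    (hc : c = 4 * (Real.exp (2 ^ (k + 1) * (k : ℝ) ^ (k + 1) * C0) * 2 ^ (k + 1)))
    (hδc : (8 * C0 * 2 ^ k * (k : ℝ) ^ (k + 1)) * δ * c ≤ 1 / 2)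
    (hA : A = 2 * (8 * C0 * 2 ^ k * (k : ℝ) ^ (k + 1)) * (4 / p ^ 2 + C0 ^ 2) * c ^ 2)
    (d : ℕ) : ∀ D : Mdl n M, D.T.card + d = n → (dead D).card ≤ D.T.card + 1 →
      U k ρ D ≤ A * c ^ D.T.card * 𝔼 ω : Fin M → Clause k n, G ρ (base n M) ω := by
  have hn : 0 < n := by omega
  have hn' : (0 : ℝ) < n := by exact_mod_cast hn
  have hC0 : 0 ≤ C0 := by
    by_contra hh
    have : C0 * n < 0 := mul_neg_of_neg_of_pos (not_le.1 hh) hn'
    have : (0 : ℝ) ≤ M := by positivity
    linarith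
  have hc0 : 0 < c := by rw [hc]; positivity
  have hA0 : 0 ≤ A := by rw [hA]; positivity
  set Z := 𝔼 ω : Fin M → Clause k n, G ρ (base n M) ω
  have hZ : 0 ≤ Z := Finset.expect_nonneg fun ω _ => (G_pos hρ _ _).le
  induction d with
  | zero =>
    intro D hD _
    refine (U_le_units hρ D).trans ?_
    have : D.Tᶜ = ∅ := by
      rw [← Finset.card_eq_zero, Finset.card_compl, Fintype.card_fin]; omega
    rw [this, Finset.sum_empty, mul_zero]
    positivity
  | succ d ih =>
    intro D hD hdead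
    set r := D.T.card with hr
    set X : ℝ := δ * (A * c ^ (r + 1) * Z) + (4 / p ^ 2 + C0 ^ 2) * c ^ (r + 2) * Z with hX
    have hX0 : 0 ≤ X := by positivity
    have h1 : ∀ v ∈ D.Tᶜ, ∀ s : Bool, 𝔼 ω : Fin M → Clause k n,
        W D.T ω * Q ρ D ω (fun m => ind (∀ σ ∈ Sol D ω m, σ v ≠ s))
        ≤ 4 * C0 * 2 ^ k * (k : ℝ) ^ (k + 1) * X := by
      intro v hv s
      have hv' := Finset.mem_compl.1 hv
      have hcard : (insert v D.T).card = r + 1 := Finset.card_insert_of_notMem hv'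
      refine (unit_le hρ hk h D hv' s).trans ?_
      have h2 : ∀ j : Fin M, 𝔼 ω : Fin M → Clause k n,
          W (insert v D.T) ω * Q ρ (kill (force D v s (j.val + 1)) j) ω
          (fun m => (beta (kill (force D v s (j.val + 1)) j) ω m
            + ((insert v D.T).card : ℝ) / n) ^ 2) ≤ 2 * X := by
        intro j
        set N := kill (force D v s (j.val + 1)) j
        have hN : N.T.card = r + 1 := hcard
        have hN2 : (dead N).card ≤ r + 2 := (dead_kill_force D v s _ j).trans (by omega)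
        have h3 := quad_le h hn hδ hδn hp0 hp1 hp hρ hρ' N (d := r + 2) (by omega) hN2 hM
        have h4 := ih N (by omega) (by omega)
        have h5 := Z_le (by omega) h hρ N hM (d := r + 2) (by omega) hN2
        rw [hN] at h4
        refine h3.trans (mul_le_mul_of_nonneg_left (add_le_add
          (mul_le_mul_of_nonneg_left h4 hδ.le) ?_) (by norm_num))
        calc _ ≤ 4 ^ (r + 2) * (4 / p ^ 2 + C0 ^ 2) *
            ((Real.exp (2 ^ (k + 1) * (k : ℝ) ^ (k + 1) * C0) * 2 ^ (k + 1)) ^ (r + 2) * Z) := by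
              gcongr
          _ = _ := by rw [hc, mul_pow 4]; ring
      calc _ ≤ ∑ _j : Fin M, 2 * (2 ^ k * ((k : ℝ) ^ (k + 1) / n) * (2 * X)) := by
            refine Finset.sum_le_sum fun j _ => ?_
            have := h2 j
            gcongr
        _ = 4 * (M / n) * 2 ^ k * (k : ℝ) ^ (k + 1) * X := by
            simp only [Finset.sum_const, Finset.card_univ, Fintype.card_fin, nsmul_eq_mul]; ring
        _ ≤ _ := by
            have h7 : (M : ℝ) / n ≤ C0 := by rwa [div_le_iff₀ hn']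
            gcongr
    refine (U_le_units hρ D).trans ?_
    set K : ℝ := 8 * C0 * 2 ^ k * (k : ℝ) ^ (k + 1) with hK
    have hK0 : 0 ≤ K := by positivity
    calc _ ≤ 1 / n * ∑ _v ∈ D.Tᶜ, K * X := by
          gcongr with v hv
          refine (Finset.sum_le_sum fun s _ => h1 v hv s).trans (le_of_eq ?_)
          simp only [Finset.sum_const, Finset.card_univ, Fintype.card_bool, nsmul_eq_mul, hK]
          push_cast; ring
      _ = ((D.Tᶜ.card : ℝ) / n) * (K * X) := by
          simp only [Finset.sum_const, nsmul_eq_mul]; ring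
      _ ≤ 1 * (K * X) := by gcongr; exact card_div_le_one hn _
      _ = (K * δ * c) * (A * c ^ r * Z) + (A * c ^ r * Z) / 2 := by
          rw [hX]
          nth_rewrite 3 [hA]
          ring
      _ ≤ _ := by
          have : 0 ≤ A * c ^ r * Z := by positivity
          nlinarith

end Crest.Agent.R153A
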